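import Vale.Agent.P200.Elim

/-! Raising the degrees of a regular sequence. -/

namespace Vale.Agent.P200M

open MvPolynomial

universe u

section general
variable {R : Type*} [CommRing R] {c : ℕ}

/-- the ideal generated by the first `m` members except the `i`-th -/
def J_Raise (f : Fin c → R) (i : Fin c) (m : ℕ) : Ideal R :=
  Ideal.span (f '' {j | (j : ℕ) < m ∧ j ≠ i})

lemma J_succ_Raise (f : Fin c → R) (i j : Fin c) (hj : j ≠ i) :
    J_Raise f i (j + 1) = J_Raise f i j ⊔ Ideal.span {f j} := by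
  unfold J_Raise
  rw [← Ideal.span_union, ← Set.image_singleton, ← Set.image_union]
  congr 2
  ext l
  have : (j : ℕ) ≠ i := fun h => hj (Fin.ext h)
  simp only [Set.mem_ofPred_eq, ne_eq, Fin.ext_iff, Set.mem_union, Set.mem_singleton_iff]
  omega

lemma idl_eq_Raise (f : Fin c → R) (i : Fin c) {m : ℕ} (hm : (i : ℕ) < m) :
    P200.idl f m = J_Raise f i m ⊔ Ideal.span {f i} := by
  unfold P200.idl J_Raise
  rw [← Ideal.span_union, ← Set.image_singleton, ← Set.image_union]
  congr 2
  ext l
  simp only [Set.mem_ofPred_eq, ne_eq, Fin.ext_iff, Set.mem_union, Set.mem_singleton_iff]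
  omega

lemma idl_low_Raise (f : Fin c → R) (i : Fin c) {m : ℕ} (hm : m ≤ (i : ℕ)) :
    P200.idl f m = J_Raise f i m := by
  unfold P200.idl J_Raise
  congr 2
  ext l
  simp only [Set.mem_ofPred_eq, ne_eq, Fin.ext_iff]
  omega

lemma mem_sup_Raise {I : Ideal R} {x y : R} :
    x ∈ I ⊔ Ideal.span {y} ↔ ∃ h ∈ I, ∃ r, x = h + y * r := by
  rw [Submodule.mem_sup]
  constructor
  · rintro ⟨h, hh, z, hz, rfl⟩
    obtain ⟨r, rfl⟩ := Ideal.mem_span_singleton'.mp hz
    exact ⟨h, hh, r, by ring⟩
  · rintro ⟨h, hh, r, rfl⟩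
    exact ⟨h, hh, _, Ideal.mem_span_singleton'.mpr ⟨r, by ring⟩, rfl⟩

lemma key_Raise {f : Fin c → R} (hf : P200.IsReg f) (j : Fin c) :
    ∀ m : ℕ, (j : ℕ) + 1 ≤ m → m ≤ c → ∀ g, f j * g ∈ J_Raise f j m → g ∈ J_Raise f j m := by
  intro m hm
  induction m, hm using Nat.le_induction with
  | base =>
    intro _ g
    have : J_Raise f j (j + 1) = P200.idl f j := by
      unfold P200.idl J_Raise
      congr 2
      ext i
      simp only [Set.mem_ofPred_eq, ne_eq, Fin.ext_iff]
      omega
    rw [this]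
    exact hf j g
  | succ m hm ih =>
    intro hmc g hg
    let mm : Fin c := ⟨m, by omega⟩
    have hne : mm ≠ j := fun h => by
      have := congrArg Fin.val h
      simp only [mm] at this
      omega
    have e1 : J_Raise f j (m + 1) = J_Raise f j m ⊔ Ideal.span {f mm} := J_succ_Raise f j mm hne
    have e2 := idl_eq_Raise f j (m := m) (by omega)
    rw [e1] at hg ⊢
    obtain ⟨h, hh, y, hsum⟩ := mem_sup_Raise.mp hg
    have hy : y ∈ P200.idl f m := by
      apply hf mm y
      show f mm * y ∈ P200.idl f m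
      rw [e2]
      exact mem_sup_Raise.mpr ⟨-h, neg_mem hh, g, by linear_combination -hsum⟩
    rw [e2] at hy
    obtain ⟨h', hh', y', hsum'⟩ := mem_sup_Raise.mp hy
    have : g - f mm * y' ∈ J_Raise f j m := by
      apply ih (by omega)
      have : f j * (g - f mm * y') = h + h' * f mm := by
        linear_combination hsum + f mm * hsum'
      rw [this]
      exact add_mem hh (Ideal.mul_mem_right _ _ hh')
    exact mem_sup_Raise.mpr ⟨_, this, y', by ring⟩

lemma update_Raise {f : Fin c → R} (hf : P200.IsReg f) (i : Fin c) (w : R)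
    (hw : ∀ m ≤ c, ∀ g, w * g ∈ J_Raise f i m → g ∈ J_Raise f i m)
    (hd : ∀ j : Fin c, i < j → ∀ g, f j * g ∈ J_Raise f i j → g ∈ J_Raise f i j) :
    P200.IsReg (Function.update f i (f i * w)) := by
  have hJ : ∀ m, J_Raise (Function.update f i (f i * w)) i m = J_Raise f i m := by
    intro m
    unfold J_Raise
    congr 1
    exact Set.image_congr fun j hj => Function.update_of_ne hj.2 _ _
  intro j h hh
  rcases lt_trichotomy j i with hj | rfl | hj
  · have hj' : (j : ℕ) ≤ i := hj.le
    rw [idl_low_Raise _ i hj', hJ, ← idl_low_Raise _ i hj'] at hh ⊢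
    rw [Function.update_of_ne hj.ne] at hh
    exact hf j h hh
  · rw [idl_low_Raise _ j le_rfl, hJ] at hh ⊢
    rw [Function.update_self, mul_assoc, ← idl_low_Raise _ j le_rfl] at hh
    have := hf j _ hh
    rw [idl_low_Raise _ j le_rfl] at this
    exact hw j j.2.le h this
  · have hj' : (i : ℕ) < j := hj
    rw [idl_eq_Raise _ i hj', hJ, Function.update_self] at hh ⊢
    rw [Function.update_of_ne hj.ne'] at hh
    obtain ⟨x, hx, r, hsum⟩ := mem_sup_Raise.mp hh
    have h0 : h ∈ P200.idl f j := by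
      apply hf j
      rw [idl_eq_Raise _ i hj']
      exact mem_sup_Raise.mpr ⟨x, hx, w * r, by rw [hsum]; ring⟩
    rw [idl_eq_Raise _ i hj'] at h0
    obtain ⟨h', hh', h1, rfl⟩ := mem_sup_Raise.mp h0
    have h2 : f j * h1 - w * r ∈ J_Raise f i j := by
      apply key_Raise hf i j hj' j.2.le
      have : f i * (f j * h1 - w * r) = x - f j * h' := by linear_combination hsum
      rw [this]
      exact sub_mem hx (Ideal.mul_mem_left _ _ hh')
    have h3 : r ∈ J_Raise f i (j + 1) := by
      apply hw _ j.2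
      rw [J_succ_Raise f i j hj.ne']
      exact mem_sup_Raise.mpr ⟨_, neg_mem h2, h1, by ring⟩
    rw [J_succ_Raise f i j hj.ne'] at h3
    obtain ⟨r', hr', r1, rfl⟩ := mem_sup_Raise.mp h3
    have h4 : h1 - w * r1 ∈ J_Raise f i j := by
      apply hd j hj
      have : f j * (h1 - w * r1) = (f j * h1 - w * (r' + f j * r1)) + w * r' := by ring
      rw [this]
      exact add_mem h2 (Ideal.mul_mem_left _ _ hr')
    exact mem_sup_Raise.mpr ⟨h' + f i * (h1 - w * r1),
      add_mem hh' (Ideal.mul_mem_left _ _ h4), r1, by ring⟩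

lemma succAbove_val_Raise (i : Fin (c + 1)) (j : Fin c) :
    (i.succAbove j : ℕ) = if (j : ℕ) < i then (j : ℕ) else j + 1 := by
  unfold Fin.succAbove
  have : j.castSucc < i ↔ (j : ℕ) < i := Iff.rfl
  split_ifs with h1 h2 h2
  · rfl
  · exact absurd (this.mp h1) h2
  · exact absurd (this.mpr h2) h1
  · rfl

lemma J_eq_Raise (f : Fin (c + 1) → R) (i : Fin (c + 1)) (m : ℕ) :
    J_Raise f i m = P200.idl (fun j => f (i.succAbove j)) (if m ≤ i then m else m - 1) := by
  unfold P200.idl J_Raise
  congr 1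
  ext x
  constructor
  · rintro ⟨j, ⟨hj, hne⟩, rfl⟩
    obtain ⟨j', rfl⟩ := Fin.exists_succAbove_eq hne
    refine ⟨j', ?_, rfl⟩
    rw [succAbove_val_Raise] at hj
    show (j' : ℕ) < _
    split_ifs at hj ⊢ <;> omega
  · rintro ⟨j', hj, rfl⟩
    refine ⟨i.succAbove j', ⟨?_, Fin.succAbove_ne i j'⟩, rfl⟩
    rw [succAbove_val_Raise]
    change (j' : ℕ) < _ at hj
    split_ifs at hj ⊢ <;> omega

end general

lemma drop_Raise {k : Type u} [Field k] {n c : ℕ} (a : Fin c → ℕ)
    (f : Fin c → MvPolynomial (Fin n) k) (hf : ∀ j, (f j).IsHomogeneous (a j))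
    (h0 : ∀ j, 0 < a j) (hreg : P200.IsReg f) (i j : Fin c) (hj : i < j)
    (g : MvPolynomial (Fin n) k) (hg : f j * g ∈ J_Raise f i j) : g ∈ J_Raise f i j := by
  have hj' : (i : ℕ) < j := hj
  have main : ∀ r : ℕ, ∃ h1, f j * h1 ∈ J_Raise f i j ∧ g - f i ^ r * h1 ∈ J_Raise f i j := by
    intro r
    induction r with
    | zero => exact ⟨g, hg, by simp⟩
    | succ r ih =>
      obtain ⟨h1, ha, hb⟩ := ih
      have : h1 ∈ P200.idl f j := by
        apply hreg j
        rw [idl_eq_Raise _ i hj']
        exact Submodule.mem_sup_left ha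
      rw [idl_eq_Raise _ i hj'] at this
      obtain ⟨h', hh', h2, rfl⟩ := mem_sup_Raise.mp this
      refine ⟨h2, ?_, ?_⟩
      · apply key_Raise hreg i j hj' j.2.le
        have : f i * (f j * h2) = f j * (h' + f i * h2) - f j * h' := by ring
        rw [this]
        exact sub_mem ha (Ideal.mul_mem_left _ _ hh')
      · have : g - f i ^ (r + 1) * h2 = g - f i ^ r * (h' + f i * h2) + f i ^ r * h' := by ring
        rw [this]
        exact add_mem hb (Ideal.mul_mem_left _ _ hh')
  obtain ⟨h1, -, hb⟩ := main (g.totalDegree + 1)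
  rw [← sum_homogeneousComponent g]
  refine Submodule.sum_mem _ fun d hd => ?_
  have hd' := Finset.mem_range.mp hd
  have h2 := P200.comp_mem_span (by rintro _ ⟨l, _, rfl⟩; exact ⟨a l, hf l⟩) hb d
  have hlt : ¬ a i * (g.totalDegree + 1) ≤ d := by
    have := Nat.le_mul_of_pos_left (g.totalDegree + 1) (h0 i)
    omega
  rw [map_sub, P200.comp_mul_hom ((hf i).pow _), if_neg hlt, sub_zero] at h2
  exact h2

lemma step_Raise {k : Type u} [Field k] [Infinite k] {c : ℕ} (a : Fin c → ℕ)
    (f : Fin c → MvPolynomial (Fin c) k) (hf : ∀ j, (f j).IsHomogeneous (a j))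
    (h0 : ∀ j, 0 < a j) (hreg : P200.IsReg f) (i : Fin c) (e : ℕ) :
    ∃ w : MvPolynomial (Fin c) k, w.IsHomogeneous e ∧
      P200.IsReg (Function.update f i (f i * w)) := by
  obtain ⟨c, rfl⟩ : ∃ c', c = c' + 1 := ⟨c - 1, by have := i.2; omega⟩
  have hd := drop_Raise a f hf h0 hreg i
  have hreg' : P200.IsReg fun j => f (i.succAbove j) := by
    intro j g hg
    have e1 : (if ((i.succAbove j : Fin (c + 1)) : ℕ) ≤ i then (i.succAbove j : ℕ)
        else (i.succAbove j : ℕ) - 1) = j := by
      rw [succAbove_val_Raise]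
      split_ifs <;> omega
    rw [← e1, ← J_eq_Raise] at hg ⊢
    rcases lt_or_gt_of_ne (Fin.succAbove_ne i j) with h | h
    · have h' : ((i.succAbove j : Fin (c + 1)) : ℕ) ≤ i := h.le
      rw [← idl_low_Raise _ i h'] at hg ⊢
      exact hreg _ g hg
    · exact hd _ h g hg
  obtain ⟨b, -, hb⟩ := P200.exists_regular_form hreg' le_rfl
  have hl : (∑ l, C (b l) * X l : MvPolynomial (Fin (c + 1)) k).IsHomogeneous 1 :=
    IsHomogeneous.sum _ _ _ fun l _ => (isHomogeneous_X k l).C_mul _
  refine ⟨(∑ l, C (b l) * X l) ^ e, by simpa using hl.pow e, update_Raise hreg i _ ?_ hd⟩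
  intro m hm
  rw [J_eq_Raise]
  have hm' : (if m ≤ i then m else m - 1) ≤ c := by
    have := i.2
    split_ifs <;> omega
  induction e with
  | zero => intro g hg; simpa using hg
  | succ e ih =>
    intro g hg
    rw [pow_succ, mul_assoc] at hg
    exact hb _ hm' g (ih _ hg)

theorem raise {k : Type u} [Field k] [Infinite k] {c A : ℕ} (a : Fin c → ℕ)
    (f : Fin c → MvPolynomial (Fin c) k) (hf : ∀ j, (f j).IsHomogeneous (a j))
    (h0 : ∀ j, 0 < a j) (hA : ∀ j, a j ≤ A) (hreg : P200.IsReg f) :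
    ∃ u : Fin c → MvPolynomial (Fin c) k, (∀ j, (u j).IsHomogeneous (A - a j)) ∧
      P200.IsReg fun j => f j * u j := by
  have main : ∀ s : Finset (Fin c), ∃ u : Fin c → MvPolynomial (Fin c) k,
      (∀ j, (u j).IsHomogeneous (if j ∈ s then A - a j else 0)) ∧
      P200.IsReg fun j => f j * u j := by
    intro s
    induction s using Finset.induction_on with
    | empty => exact ⟨fun _ => 1, fun j => by simpa using isHomogeneous_one _ _, by simpa using hreg⟩
    | insert i s hi ih =>
      obtain ⟨u, hu, hr⟩ := ih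
      obtain ⟨w, hw, hr'⟩ := step_Raise (fun j => a j + if j ∈ s then A - a j else 0)
        (fun j => f j * u j) (fun j => (hf j).mul (hu j)) (fun j => by have := h0 j; omega)
        hr i (A - a i)
      refine ⟨Function.update u i (u i * w), fun j => ?_, ?_⟩
      · by_cases hj : j = i
        · subst hj
          have := (hu j).mul hw
          rw [if_neg hi, zero_add] at this
          simpa using this
        · rw [Function.update_of_ne hj]
          simpa [hj] using hu j
      · convert hr' using 2 with j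
        by_cases hj : j = i
        · subst hj
          simp [mul_assoc]
        · simp [Function.update_of_ne hj]
  obtain ⟨u, hu, hr⟩ := main Finset.univ
  exact ⟨u, fun j => by simpa using hu j, hr⟩

end Vale.Agent.P200M
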