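import Vale.Agent.P200M.Fr2
import Vale.Agent.P200M.Raise
import Vale.Agent.P200E.Top

/-! The case of two small degrees and equal large degrees. -/

namespace Vale.Agent.P200M

open MvPolynomial TensorProduct P200

universe u

theorem exch {D : Type*} [DivisionRing D] {c : ℕ} (τ : Fin (c + 2) → Fin (c + 2) → D)
    (hτ : LinearIndependent D τ) : ∃ σ : Equiv.Perm (Fin (c + 2)), ∀ x : Fin (c + 2) → D,
      x ∈ Submodule.span D ({Pi.single 0 1, Pi.single 1 1} ∪
        (fun i => τ (σ i)) '' {i | 2 ≤ (i : ℕ)}) := by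
  classical
  have htop : Submodule.span D (Set.range τ) = ⊤ :=
    hτ.span_eq_top_of_card_eq_finrank (by simp)
  have hrep : ∀ x : Fin (c + 2) → D, ∃ v : Fin (c + 2) → D, ∑ i, v i • τ i = x := fun x =>
    (Submodule.mem_span_range_iff_exists_fun D).1 (htop ▸ Submodule.mem_top)
  obtain ⟨u, hu⟩ := hrep (Pi.single 0 1)
  obtain ⟨p, hp⟩ : ∃ p, u p ≠ 0 := by
    by_contra h
    push Not at h
    have := congrFun hu 0
    simp [h] at this
  obtain ⟨v0, hv0⟩ := hrep (Pi.single 1 1)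
  let v : Fin (c + 2) → D := fun i => v0 i - v0 p * (u p)⁻¹ * u i
  have hv : ∑ i, v i • τ i = Pi.single 1 1 - (v0 p * (u p)⁻¹) • Pi.single 0 1 := by
    rw [← hu, ← hv0, Finset.smul_sum, ← Finset.sum_sub_distrib]
    exact Finset.sum_congr rfl fun i _ => by rw [sub_smul, smul_smul]
  have hvp : v p = 0 := by simp [v, mul_assoc, inv_mul_cancel₀ hp]
  obtain ⟨q, hq⟩ : ∃ q, v q ≠ 0 := by
    by_contra h
    push Not at h
    have := congrFun hv 1
    simp [h] at this
  have hpq : q ≠ p := by rintro rfl; exact hq hvp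
  have hq0 : Equiv.swap 0 p q ≠ 0 := by
    intro h
    rw [Equiv.swap_apply_eq_iff, Equiv.swap_apply_left] at h
    exact hpq h
  let σ : Equiv.Perm (Fin (c + 2)) := Equiv.swap 0 p * Equiv.swap 1 (Equiv.swap 0 p q)
  have s0 : σ 0 = p := by
    simp only [σ, Equiv.Perm.mul_apply]
    rw [Equiv.swap_apply_of_ne_of_ne Fin.zero_ne_one hq0.symm, Equiv.swap_apply_left]
  have s1 : σ 1 = q := by simp [σ]
  refine ⟨σ, ?_⟩
  set U := Submodule.span D ({Pi.single 0 1, Pi.single 1 1} ∪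
    (fun i => τ (σ i)) '' {i | 2 ≤ (i : ℕ)}) with hU
  have e0 : Pi.single 0 1 ∈ U := Submodule.subset_span (Or.inl (Or.inl rfl))
  have e1 : Pi.single 1 1 ∈ U := Submodule.subset_span (Or.inl (Or.inr rfl))
  have e2 : ∀ i, i ≠ p → i ≠ q → τ i ∈ U := by
    intro i hi hi'
    obtain ⟨j, rfl⟩ := σ.surjective i
    refine Submodule.subset_span (Or.inr ⟨j, ?_, rfl⟩)
    have j0 : j ≠ 0 := by rintro rfl; exact hi s0
    have j1 : j ≠ 1 := by rintro rfl; exact hi' s1
    have := Fin.val_ne_of_ne j0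
    have := Fin.val_ne_of_ne j1
    simp only [Fin.val_zero, Fin.val_one, Set.mem_ofPred_eq] at *
    omega
  have key : ∀ (w : Fin (c + 2) → D) (r : Fin (c + 2)), w r ≠ 0 → ∑ i, w i • τ i ∈ U →
      (∀ i, i ≠ r → w i • τ i ∈ U) → τ r ∈ U := by
    intro w r hr h1 h2
    rw [← Finset.add_sum_erase _ _ (Finset.mem_univ r)] at h1
    have h3 := (U.add_mem_iff_left (U.sum_mem fun i hi => h2 i (Finset.ne_of_mem_erase hi))).1 h1
    exact (U.smul_mem_iff hr).1 h3
  have e3 : τ q ∈ U := key v q hq (hv ▸ sub_mem e1 (U.smul_mem _ e0)) fun i hi => by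
    by_cases hip : i = p
    · rw [hip, hvp, zero_smul]
      exact zero_mem _
    · exact U.smul_mem _ (e2 i hip hi)
  have e4 : ∀ i, i ≠ p → τ i ∈ U := fun i hi => by
    by_cases hiq : i = q
    · rw [hiq]; exact e3
    · exact e2 i hi hiq
  have e5 : τ p ∈ U := key u p hp (hu ▸ e0) fun i hi => U.smul_mem _ (e4 i hi)
  intro x
  obtain ⟨w, rfl⟩ := hrep x
  refine U.sum_mem fun i _ => U.smul_mem _ ?_
  by_cases hi : i = p
  · rw [hi]; exact e5
  · exact e4 i hi

theorem all_mem {k : Type u} [Field k] {c a : ℕ} (ha : 0 < a) {f : Fin c → MvPolynomial (Fin c) k}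
    (hf : ∀ j, (f j).IsHomogeneous a) (hreg : IsReg f) {g : MvPolynomial (Fin c) k}
    (hg : g.IsHomogeneous (c * a + 1)) : g ∈ Ideal.span (Set.range f) := by
  have h1 := P200.hser_eq ha hf hreg c le_rfl
  have h2 := P200.hser_zero f
  have h3 : P200.hser f c = (∑ i ∈ Finset.range a, PowerSeries.X ^ i) ^ c := by
    rw [h1, ← geom_sum_mul_neg, mul_pow, mul_assoc, mul_comm _ (P200.hser f 0), h2, mul_one]
  have h5 : ((∑ i ∈ Finset.range a, PowerSeries.X ^ i) ^ c : PowerSeries ℤ) =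
      (((∑ i ∈ Finset.range a, Polynomial.X ^ i) ^ c : Polynomial ℤ) : PowerSeries ℤ) := by
    rw [← Polynomial.coeToPowerSeries.ringHom_apply]
    simp only [map_pow, map_sum, Polynomial.coeToPowerSeries.ringHom_apply, Polynomial.coe_X]
  have h6 : ((∑ i ∈ Finset.range a, Polynomial.X ^ i) ^ c : Polynomial ℤ).natDegree ≤ c * a := by
    refine Polynomial.natDegree_pow_le_of_le c (Polynomial.natDegree_sum_le_of_forall_le _ _ ?_)
    intro i hi
    rw [Polynomial.natDegree_X_pow]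
    exact (Finset.mem_range.1 hi).le
  have h4 := congrArg (PowerSeries.coeff (c * a + 1)) h3
  rw [h5, Polynomial.coeff_coe, Polynomial.coeff_eq_zero_of_natDegree_lt (by omega)] at h4
  simp only [P200.hser, PowerSeries.coeff_mk] at h4
  have h7 : P200.ipart (P200.idl f c) (c * a + 1) = homogeneousSubmodule (Fin c) k (c * a + 1) := by
    refine Submodule.eq_of_le_of_finrank_eq inf_le_right ?_
    rw [P200.finrank_hom]
    omega
  have h8 : g ∈ P200.ipart (P200.idl f c) (c * a + 1) := by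
    rw [h7]
    exact hg
  rw [← P200.idl_top]
  exact h8.1

theorem frames_indep {k D : Type*} [Field k] [DivisionRing D] [Algebra k D] {c A : ℕ} (hA : 0 < A)
    (g : Fin c → MvPolynomial (Fin c) k) (γ τ w : Fin c → Fin c → D)
    (hcomm : ∀ a a', a ≠ a' → ∀ m l, Commute (γ a m) (γ a' l))
    (h1 : ∀ a, (∑ m, γ a m ⊗ₜ[k] (X m : MvPolynomial (Fin c) k)) ^ A = ∑ j, τ a j ⊗ₜ[k] g j)
    (hw : ∀ a a', ∑ m, γ a m * w m a' = if a = a' then 1 else 0) : LinearIndependent D τ := by
  classical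
  let N : Fin c → D ⊗[k] MvPolynomial (Fin c) k := fun a => ∑ m, γ a m ⊗ₜ X m
  have hN : ∀ i j, Commute (N i) (N j) := by
    intro i j
    by_cases hij : i = j
    · rw [hij]
    · refine Commute.sum_left _ _ _ fun m _ => Commute.sum_right _ _ _ fun l _ => ?_
      simp [Commute, SemiconjBy, (hcomm _ _ hij m l).eq, mul_comm]
  have hb := (fr_bij N hN (fun i => Submodule.sum_mem _ fun m _ =>
    Submodule.tmul_mem_baseChange_of_mem _ (isHomogeneous_X _ _)) (fun m => by
      obtain ⟨u, hu⟩ := left_inverse γ w hw m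
      have : (1 : D) ⊗ₜ[k] (X m : MvPolynomial (Fin c) k) = ∑ a, u a • N a := by
        simp only [N, Finset.smul_sum, smul_tmul', smul_eq_mul]
        rw [Finset.sum_comm]
        simp [← sum_tmul, hu, ite_tmul]
      rw [this]
      exact Submodule.sum_mem _ fun a _ => Submodule.smul_mem _ _
        (Submodule.subset_span ⟨a, rfl⟩))).1
  have hli : LinearIndependent D fun a => mono N hN (Finsupp.single a A) :=
    LinearIndependent.comp (v := mono N hN) hb _ (Finsupp.single_left_injective hA.ne')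
  refine LinearIndependent.of_comp (Fintype.linearCombination D fun j => (1 : D) ⊗ₜ[k] g j) ?_
  convert hli using 1
  funext a
  rw [mono_single, h1, Function.comp_apply, Fintype.linearCombination_apply]
  simp only [smul_tmul', smul_eq_mul, mul_one]

theorem core {K : Type*} {k : Type u} {D : Type*} [Field K] [Field k] [Algebra K k]
    [DivisionRing D] [Algebra K D]
    [Algebra k D] [IsScalarTower K k D] {m c b : ℕ} (hc : c + 2 ≤ m + 2) (a : Fin (c + 2) → ℕ)
    (h0 : 0 < a 0) (h01 : a 0 ≤ a 1) (ha : ∀ j, a j ≤ b + 1)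
    (f : Fin (c + 2) → MvPolynomial (Fin (m + 2)) K) (hf : ∀ j, (f j).IsHomogeneous (a j))
    (I : Ideal (MvPolynomial (Fin (m + 2)) K))
    (hI : ∀ j, f j ∈ I) (lam : Fin (m + 2) → Fin (c + 2) → k)
    (hlam : ∀ i, lam (Fin.castLE hc i) = Pi.single i 1)
    (ρ : MvPolynomial (Fin (m + 2)) k →ₐ[k] MvPolynomial (Fin (c + 2)) k)
    (hρ : ∀ p, ρ (X p) = ∑ l, C (lam p l) * X l)
    (u : Fin (c + 2) → MvPolynomial (Fin (c + 2)) k) (hu : ∀ j, (u j).IsHomogeneous (b + 1 - a j))
    (hreg : IsReg fun j => ρ (map (algebraMap K k) (f j)) * u j)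
    (γ τ w : Fin (c + 2) → Fin (c + 2) → D)
    (hcomm : ∀ a a', a ≠ a' → ∀ m l, Commute (γ a m) (γ a' l))
    (h1 : ∀ a, (∑ m, γ a m ⊗ₜ[k] (X m : MvPolynomial (Fin (c + 2)) k)) ^ (b + 1) =
      ∑ j, τ a j ⊗ₜ[k] (ρ (map (algebraMap K k) (f j)) * u j))
    (hw : ∀ a a', ∑ m, γ a m * w m a' = if a = a' then 1 else 0)
    (hex : ∀ x : Fin (c + 2) → D, x ∈ Submodule.span D ({Pi.single 0 1, Pi.single 1 1} ∪
        τ '' {i | 2 ≤ (i : ℕ)})) :
    ∃ J : Set (Fin (m + 2) →₀ ℕ), (∀ β ∈ J, ∀ i, β + Finsupp.single i 1 ∈ J) ∧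
      Finsupp.single 0 (a 0) ∈ J ∧ Finsupp.single 1 (a 1) ∈ J ∧
      (∀ i : Fin (m + 2), 2 ≤ (i : ℕ) → (i : ℕ) < c + 2 → Finsupp.single i (b + 1) ∈ J) ∧
      ∀ d (T : Finset (Fin (m + 2) →₀ ℕ)), (∀ β, β ∈ T ↔ β ∈ J ∧ β.degree = d) →
        T.card = Module.finrank K (ipart I d) := by
  classical
  let θ : k →ₐ[K] D := IsScalarTower.toAlgHom K k D
  have hθ : ∀ r d, Commute (θ r) d := fun r d => Algebra.commutes r d
  let ψ : MvPolynomial (Fin (m + 2)) k →+* D ⊗[K] MvPolynomial (Fin (m + 2)) K :=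
    (Algebra.TensorProduct.map θ (AlgHom.id K _)).toRingHom.comp
      (algebraTensorAlgEquiv K k).symm.toRingEquiv.toRingHom
  have ψm : ∀ u r, ψ (monomial u r) = θ r ⊗ₜ monomial u 1 := by
    intro u r; simp [ψ]
  have ψX : ∀ p, ψ (X p) = 1 ⊗ₜ X p := by
    intro p; simp [ψ]
  have ψC : ∀ r, ψ (C r) = θ r ⊗ₜ 1 := fun r => ψm 0 r
  have ψmap : ∀ g, ψ (map (algebraMap K k) g) = 1 ⊗ₜ g := by
    intro g; simp [ψ]
  have ψcomm : ∀ g y, Commute (ψ g) y := by
    intro g y
    induction g using MvPolynomial.induction_on' with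
    | monomial u r =>
      rw [ψm]
      induction y using TensorProduct.induction_on with
      | zero => simp
      | tmul d s => simp [Commute, SemiconjBy, (hθ r d).eq, mul_comm]
      | add x y hx hy => exact hx.add_right hy
    | add p q hp hq => rw [map_add]; exact hp.add_left hq
  have ψhom : ∀ d g, g.IsHomogeneous d → ψ g ∈ Bd K D (m + 2) d := by
    intro d g hg
    rw [g.as_sum, map_sum]
    refine Submodule.sum_mem _ fun u hu => ?_
    rw [ψm]
    exact Submodule.tmul_mem_baseChange_of_mem _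
      (isHomogeneous_monomial _ (mem_expo.mp (mem_hom_iff.mp hg u hu)))
  let ρ' : MvPolynomial (Fin (m + 2)) k →ₐ[k] MvPolynomial (Fin (m + 2)) k :=
    (rename (Fin.castLE hc)).comp ρ
  have hρ' : ∀ p, ρ' (X p) = ∑ l, C (lam p l) * X (Fin.castLE hc l) := by
    intro p; simp [ρ', hρ, map_sum]
  have hρ1 : ∀ p, (ρ' (X p)).IsHomogeneous 1 := fun p => by
    rw [hρ']; exact IsHomogeneous.sum _ _ _ fun l _ => isHomogeneous_C_mul_X _ _
  have hρh : ∀ d g, g.IsHomogeneous d → (ρ g).IsHomogeneous d := by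
    intro d g hg
    have h3 : ρ = aeval fun p => ρ (X p) := by
      ext1 p; simp
    have := hg.aeval (fun p => ρ (X p)) (n := 1) fun p => by
      rw [hρ]; exact IsHomogeneous.sum _ _ _ fun l _ => isHomogeneous_C_mul_X _ _
    rwa [one_mul, ← h3] at this
  have hρr : ∀ g, ρ (rename (Fin.castLE hc) g) = g := by
    intro g
    have : ρ.comp (rename (Fin.castLE hc)) = AlgHom.id k _ := by
      ext1 j
      simp [hρ, hlam, Pi.single_apply, apply_ite C]
    exact congr($this g)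
  let N : Fin (c + 2) → D ⊗[K] MvPolynomial (Fin (m + 2)) K :=
    fun a => ∑ l, γ a l ⊗ₜ X (Fin.castLE hc l)
  let M : Fin (m + 2) → D ⊗[K] MvPolynomial (Fin (m + 2)) K := fun p =>
    if h : (p : ℕ) < c + 2 then N ⟨p, h⟩ else ψ (X p - ρ' (X p))
  have hM : ∀ i j, Commute (M i) (M j) := by
    intro i j
    simp only [M]
    split_ifs with hi hj
    · by_cases hij : (⟨i, hi⟩ : Fin (c + 2)) = ⟨j, hj⟩
      · rw [hij]
      · refine Commute.sum_left _ _ _ fun m _ => Commute.sum_right _ _ _ fun l _ => ?_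
        simp [Commute, SemiconjBy, (hcomm _ _ hij m l).eq, mul_comm]
    · exact (ψcomm _ _).symm
    · exact ψcomm _ _
    · exact ψcomm _ _
  have hspan : ∀ l : Fin (c + 2),
      (1 : D) ⊗ₜ[K] (X (Fin.castLE hc l) : MvPolynomial (Fin (m + 2)) K) ∈
      Submodule.span D (Set.range M) := by
    intro l
    obtain ⟨u, hu⟩ := left_inverse γ w hw l
    have : (1 : D) ⊗ₜ[K] (X (Fin.castLE hc l) : MvPolynomial (Fin (m + 2)) K) =
        ∑ a, u a • N a := by
      simp only [N, Finset.smul_sum, smul_tmul', smul_eq_mul]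
      rw [Finset.sum_comm]
      simp [← sum_tmul, hu, ite_tmul]
    rw [this]
    refine Submodule.sum_mem _ fun a _ => Submodule.smul_mem _ _ (Submodule.subset_span
      ⟨Fin.castLE hc a, ?_⟩)
    simp [M]
  let ψA : MvPolynomial (Fin (m + 2)) k →ₐ[k] D ⊗[K] MvPolynomial (Fin (m + 2)) K :=
    { ψ with commutes' := fun r => ψC r }
  let Φ : D ⊗[k] MvPolynomial (Fin (c + 2)) k →ₐ[k] D ⊗[K] MvPolynomial (Fin (m + 2)) K :=
    Algebra.TensorProduct.lift Algebra.TensorProduct.includeLeft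
      (ψA.comp (rename (Fin.castLE hc))) fun x y => (ψcomm _ _).symm
  have hΦ : ∀ (x : D) (g : MvPolynomial (Fin (c + 2)) k),
      Φ (x ⊗ₜ[k] g) = x • ψ (rename (Fin.castLE hc) g) := by
    intro x g
    rw [smul_eq_tmul_mul]
    rfl
  have hsub : ∀ e (g : MvPolynomial (Fin (m + 2)) k), g.IsHomogeneous (e + 1) →
      ∃ W : Fin (m + 2) → MvPolynomial (Fin (m + 2)) k, (∀ p, (W p).IsHomogeneous e) ∧
        ψ (ρ' g) = ψ g +
          ∑ p ∈ Finset.univ.filter (fun p : Fin (m + 2) => c + 2 ≤ p), ψ (W p) * M p := by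
    intro e g hg
    obtain ⟨W, hW1, hW2⟩ := P200E.Top_hom_sub ρ' hρ1 hg
    refine ⟨W, hW1, ?_⟩
    rw [hW2, map_add, map_sum, Finset.sum_filter]
    congr 1
    refine Finset.sum_congr rfl fun p _ => ?_
    split_ifs with hp
    · simp only [M, dif_neg (not_lt.mpr hp), map_mul]
    · have : X p - ρ' (X p) = 0 := by
        obtain ⟨p', rfl⟩ : ∃ p' : Fin (c + 2), p = Fin.castLE hc p' := ⟨⟨p, not_le.mp hp⟩, rfl⟩
        simp [hρ', hlam, Pi.single_apply, apply_ite C]
      rw [this, mul_zero, map_zero]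
  let G : Fin (c + 2) → MvPolynomial (Fin (m + 2)) k := fun j =>
    rename (Fin.castLE hc) (u j) * map (algebraMap K k) (f j)
  have hG : ∀ j, (G j).IsHomogeneous (b + 1) := fun j => by
    have := ((hu j).rename_isHomogeneous (f := Fin.castLE hc)).mul ((hf j).map (algebraMap K k))
    rwa [Nat.sub_add_cancel (ha j)] at this
  have hGρ : ∀ j, ρ' (G j) = rename (Fin.castLE hc) (ρ (map (algebraMap K k) (f j)) * u j) := by
    intro j
    simp only [ρ', G, AlgHom.comp_apply, map_mul, hρr, mul_comm]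
  have hGψ : ∀ j, ψ (G j) = ψ (rename (Fin.castLE hc) (u j)) * 1 ⊗ₜ f j := fun j => by
    simp only [G, map_mul, ψmap]
  have e1 : ∀ i, N i ^ (b + 1) = ∑ j, τ i j • ψ (ρ' (G j)) := by
    intro i
    have := congrArg Φ (h1 i)
    rw [map_pow, map_sum, map_sum] at this
    simp only [hΦ, rename_X, ψX, smul_tmul', smul_eq_mul, mul_one] at this
    simp only [N, hGρ]
    exact this
  choose W hW1 hW2 using fun j => hsub b _ (hG j)
  refine frame2 M hM I ?_ ?_ (c := c + 2) (by omega) h0 h01 ?_ ⟨hI 0, hf 0⟩ ⟨hI 1, hf 1⟩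
    ((c + 2) * (b + 1) + 1) ?_
  · intro i
    simp only [M]
    split_ifs
    · exact Submodule.sum_mem _ fun m _ =>
        Submodule.tmul_mem_baseChange_of_mem _ (isHomogeneous_X _ _)
    · exact ψhom _ _ ((isHomogeneous_X _ _).sub (hρ1 i))
  · intro p
    by_cases hp : (p : ℕ) < c + 2
    · exact hspan ⟨p, hp⟩
    · have : (1 : D) ⊗ₜ[K] (X p : MvPolynomial (Fin (m + 2)) K) =
          M p + ∑ l, θ (lam p l) • ((1 : D) ⊗ₜ[K] X (Fin.castLE hc l)) := by
        simp [M, dif_neg hp, hρ', ψX, ψC, map_sum, smul_tmul']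
      rw [this]
      exact add_mem (Submodule.subset_span ⟨p, rfl⟩)
        (Submodule.sum_mem _ fun l _ => Submodule.smul_mem _ _ (hspan l))
  · intro i _ hi
    let t : Fin (c + 2) := ⟨i, hi⟩
    refine ⟨∑ j, τ t j • ψ (G j), Submodule.sum_mem _ fun j _ => Submodule.smul_mem _ _ ?_,
      fun p => ∑ j, τ t j • ψ (W j p), fun p => Submodule.sum_mem _ fun j _ =>
        Submodule.smul_mem _ _ (ψhom _ _ (hW1 j p)), ?_⟩
    · rw [hGψ]
      refine bc_mul (p := homogeneousSubmodule (Fin (m + 2)) K (b + 1 - a j))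
        (q := ipart I (a j)) (r := ipart I (b + 1)) (fun x hx y hy => ⟨Ideal.mul_mem_left _ _ hy.1, ?_⟩)
        (ψhom _ _ ((hu j).rename_isHomogeneous (f := Fin.castLE hc)))
        (Submodule.tmul_mem_baseChange_of_mem _ ⟨hI j, hf j⟩)
      have := IsHomogeneous.mul hx hy.2
      rwa [Nat.sub_add_cancel (ha j)] at this
    · have e2 : M i = N t := dif_pos hi
      rw [e2, e1]
      simp only [hW2, smul_add, Finset.sum_add_distrib, Finset.smul_sum, Finset.sum_mul]
      congr 1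
      rw [Finset.sum_comm]
      refine Finset.sum_congr rfl fun p _ => Finset.sum_congr rfl fun j _ => ?_
      rw [smul_eq_tmul_mul, smul_eq_tmul_mul, mul_assoc]
  · set L := Ideal.span ({(1 : D) ⊗ₜ[K] f 0, 1 ⊗ₜ[K] f 1} ∪ M '' {k | 2 ≤ (k : ℕ)}) with hL
    have l1 : ∀ p : Fin (m + 2), 2 ≤ (p : ℕ) → M p ∈ L := fun p hp =>
      Ideal.subset_span (Or.inr ⟨p, hp, rfl⟩)
    have l2 : ∀ V : Fin (m + 2) → MvPolynomial (Fin (m + 2)) k,
        ∑ p ∈ Finset.univ.filter (fun p : Fin (m + 2) => c + 2 ≤ p), ψ (V p) * M p ∈ L :=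
      fun V => L.sum_mem fun p hp => L.mul_mem_left _ (l1 p (by
        have := (Finset.mem_filter.1 hp).2
        omega))
    have l3 : ∀ (d : D), ∀ y ∈ L, d • y ∈ L := fun d y hy => by
      rw [smul_eq_tmul_mul]
      exact L.mul_mem_left _ hy
    have l4 : ∀ x : Fin (c + 2) → D, ∑ j, x j • ψ (ρ' (G j)) ∈ L := by
      intro x
      have hx := hex x
      induction hx using Submodule.span_induction with
      | mem x hx =>
        rcases hx with (rfl | rfl) | ⟨i, hi, rfl⟩
        · rw [Finset.sum_eq_single 0 (fun j _ hj => by simp [hj]) (by simp), hW2, hGψ]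
          exact l3 _ _ (add_mem (L.mul_mem_left _ (Ideal.subset_span (Or.inl (Or.inl rfl))))
            (l2 _))
        · rw [Finset.sum_eq_single 1 (fun j _ hj => by simp [hj]) (by simp), hW2, hGψ]
          exact l3 _ _ (add_mem (L.mul_mem_left _ (Ideal.subset_span (Or.inl (Or.inr rfl))))
            (l2 _))
        · have e2 : M (Fin.castLE hc i) = N i := dif_pos i.2
          rw [← e1, ← e2, pow_succ]
          exact L.mul_mem_left _ (l1 _ hi)
      | zero => simp
      | add x y _ _ hx hy =>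
        simp only [Pi.add_apply, add_smul, Finset.sum_add_distrib]
        exact add_mem hx hy
      | smul d x _ hx =>
        simp only [Pi.smul_apply, smul_eq_mul, mul_smul, ← Finset.smul_sum]
        exact l3 _ _ hx
    have l5 : ∀ j, ψ (ρ' (G j)) ∈ L := fun j => by
      have := l4 (Pi.single j 1)
      rwa [Finset.sum_eq_single j (fun i _ hi => by simp [hi]) (by simp), Pi.single_eq_same,
        one_smul] at this
    rintro _ ⟨y, rfl⟩
    induction y using TensorProduct.induction_on with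
    | zero => simp
    | add x y hx hy => rw [map_add]; exact add_mem hx hy
    | tmul d s =>
      have hs : (map (algebraMap K k) s.1).IsHomogeneous ((c + 2) * (b + 1) + 1) :=
        IsHomogeneous.map s.2 _
      obtain ⟨V, -, hV⟩ := hsub _ _ hs
      have h2 := all_mem (Nat.succ_pos b) (fun j => by
        have := (hρh _ _ ((hf j).map (algebraMap K k))).mul (hu j)
        rwa [Nat.add_sub_cancel' (ha j)] at this) hreg (hρh _ _ hs)
      obtain ⟨h, hh⟩ := Ideal.mem_span_range_iff_exists_fun.1 h2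
      have h3 : ψ (ρ' (map (algebraMap K k) s.1)) ∈ L := by
        change ψ (rename (Fin.castLE hc) (ρ (map (algebraMap K k) s.1))) ∈ L
        rw [← hh, map_sum, map_sum]
        refine L.sum_mem fun j _ => ?_
        rw [map_mul, map_mul, ← hGρ]
        exact L.mul_mem_left _ (l5 j)
      rw [hV, ψmap] at h3
      have h4 := l3 d _ ((L.add_mem_iff_left (l2 V)).1 h3)
      simpa [smul_tmul'] using h4

theorem egh_two {K : Type u} [Field K] {n c : ℕ} (hc : c ≤ n) (a : Fin c → ℕ)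
    (h2 : ∀ i, 2 ≤ a i) (hmono : Monotone a)
    (htop : ∀ i j : Fin c, 2 ≤ (i : ℕ) → 2 ≤ (j : ℕ) → a i = a j)
    (f : Fin c → MvPolynomial (Fin n) K) (hf : ∀ i, (f i).IsHomogeneous (a i)) (hreg : IsReg f)
    (I : Ideal (MvPolynomial (Fin n) K)) (hI : ∀ i, f i ∈ I) :
    ∃ J : Set (Fin n →₀ ℕ), (∀ β ∈ J, ∀ i, β + Finsupp.single i 1 ∈ J) ∧
      (∀ i : Fin c, Finsupp.single (Fin.castLE hc i) (a i) ∈ J) ∧
      ∀ d (T : Finset (Fin n →₀ ℕ)), (∀ β, β ∈ T ↔ β ∈ J ∧ β.degree = d) →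
        T.card = Module.finrank K (ipart I d) := by
  rcases c with _ | _ | c
  · obtain ⟨J, j1, -, j3⟩ := P200E.egh_equal hc le_rfl f (fun i => i.elim0) hreg I hI
    exact ⟨J, j1, fun i => i.elim0, j3⟩
  · obtain ⟨J, j1, j2, j3⟩ := P200E.egh_equal hc (h2 0) f
      (fun i => by rw [← Fin.fin_one_eq_zero i]; exact hf i) hreg I hI
    refine ⟨J, j1, fun i => ?_, j3⟩
    rw [Fin.fin_one_eq_zero i]
    exact j2 _ (by simp)
  obtain ⟨m, rfl⟩ : ∃ m, n = m + 2 := ⟨n - 2, by omega⟩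
  obtain ⟨b, hb⟩ : ∃ b, a (Fin.last _) = b + 1 := ⟨a (Fin.last _) - 1, by
    have := h2 (Fin.last _)
    omega⟩
  have ha : ∀ j, a j ≤ b + 1 := fun j => hb ▸ hmono (Fin.le_last j)
  let k := AlgebraicClosure K
  have h1 := hreg.baseChange (k := k)
  obtain ⟨lam, hlam, h3⟩ := P200.elim hc h1
  obtain ⟨ζ, hζ⟩ := P200E.exists_QR (k := k) (a := b + 1) (by omega)
  have h4 : ∀ j, (P200.linSub lam (map (algebraMap K k) (f j))).IsHomogeneous (a j) := by
    intro j
    have := ((hf j).map (algebraMap K k)).aeval (fun j => ∑ l, C (lam j l) * X l)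
      (n := 1) fun i => IsHomogeneous.sum _ _ _ fun l _ => isHomogeneous_C_mul_X _ _
    rw [one_mul] at this
    exact this
  obtain ⟨u, hu, h5⟩ := raise a _ h4 (fun j => by have := h2 j; omega) ha h3
  obtain ⟨k', D, i1, i2, i3, i4, i5, i6, i7, γ, τ, w, hcomm, r1, hw⟩ :=
    P200E.towerA (hb ▸ h2 _) hζ _ (fun j => by
      have := (h4 j).mul (hu j)
      rwa [Nat.add_sub_cancel' (ha j)] at this) h5 _ le_rfl
  let alg : Algebra K D := ((algebraMap k D).comp (algebraMap K k)).toAlgebra'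
    fun r d => Algebra.commutes _ d
  have : IsScalarTower K k D := IsScalarTower.of_algebraMap_eq fun _ => rfl
  obtain ⟨σ, hσ⟩ := exch τ (frames_indep (Nat.succ_pos b) _ γ τ w hcomm r1 hw)
  obtain ⟨J, j1, j2, j3, j4, j5⟩ := core hc a (by have := h2 0; omega)
    (hmono (Fin.zero_le _)) ha f hf I hI lam hlam (P200.linSub lam)
    (fun p => by simp [P200.linSub]) u hu h5 (fun i => γ (σ i)) (fun i => τ (σ i))
    (fun l i => w l (σ i)) (fun i j hij => hcomm _ _ (σ.injective.ne hij)) (fun i => r1 _)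
    (fun i j => by rw [hw]; simp) hσ
  refine ⟨J, j1, fun i => ?_, j5⟩
  by_cases hi0 : i = 0
  · rw [hi0]; exact j2
  by_cases hi1 : i = 1
  · rw [hi1]; exact j3
  have hi : 2 ≤ (i : ℕ) := by
    have := Fin.val_ne_of_ne hi0
    have := Fin.val_ne_of_ne hi1
    simp only [Fin.val_zero, Fin.val_one] at *
    omega
  rw [htop i (Fin.last _) hi (hi.trans (Fin.le_last i)), hb]
  exact j4 _ hi i.2

end Vale.Agent.P200M
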