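import Vale.Agent.P200M.LayB

/-! Frames with two free variables. -/

namespace Vale.Agent.P200M

open MvPolynomial Module TensorProduct P200

variable {K D : Type*} [Field K] [DivisionRing D] [Algebra K D] {n : ℕ}
  (M : Fin n → D ⊗[K] MvPolynomial (Fin n) K) (hM : ∀ i j, Commute (M i) (M j))

theorem fr_surj (hs : ∀ k, (1 : D) ⊗ₜ[K] (X k : MvPolynomial (Fin n) K) ∈
      Submodule.span D (Set.range M)) (d : ℕ) (y) (hy : y ∈ Bd K D n d) :
    ∃ v ∈ Finsupp.supported D D (expo n d : Set (Fin n →₀ ℕ)),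
      Finsupp.linearCombination D (mono M hM) v = y := by
  have := Bd_le_span M hM hs d hy
  rw [Finsupp.span_image_eq_map_linearCombination] at this
  exact this

theorem fr_inj (h1 : ∀ i, M i ∈ Bd K D n 1)
    (hs : ∀ k, (1 : D) ⊗ₜ[K] (X k : MvPolynomial (Fin n) K) ∈ Submodule.span D (Set.range M))
    (d : ℕ) : Disjoint (Finsupp.supported D D (expo n d : Set (Fin n →₀ ℕ)))
      (LinearMap.ker (Finsupp.linearCombination D (mono M hM))) := by
  rw [← linearIndepOn_iff_disjoint]
  have e : Set.range (fun x : (expo n d : Set (Fin n →₀ ℕ)) => mono M hM x) =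
      mono M hM '' (expo n d : Set (Fin n →₀ ℕ)) := by ext; simp
  rw [LinearIndepOn, linearIndependent_iff_card_eq_finrank_span, Set.finrank, e]
  have e2 : Submodule.span D (mono M hM '' (expo n d : Set (Fin n →₀ ℕ))) = Bd K D n d := by
    refine le_antisymm ?_ (Bd_le_span M hM hs d)
    rw [Submodule.span_le]
    rintro _ ⟨β, hβ, rfl⟩
    have := mono_mem M hM h1 β
    rwa [mem_expo.mp hβ] at this
  rw [e2, finrank_bc, finrank_hom, ← card_expo]
  simp

theorem fr_bij (h1 : ∀ i, M i ∈ Bd K D n 1)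
    (hs : ∀ k, (1 : D) ⊗ₜ[K] (X k : MvPolynomial (Fin n) K) ∈ Submodule.span D (Set.range M)) :
    Function.Bijective (Finsupp.linearCombination D (mono M hM)) := by
  classical
  constructor
  · have hπ : ∀ d e (y : D ⊗[K] MvPolynomial (Fin n) K), y ∈ Bd K D n e →
        (homogeneousComponent d).baseChange D y = if e = d then y else 0 := by
      rintro d e _ ⟨y, rfl⟩
      induction y using TensorProduct.induction_on with
      | zero => simp
      | add x y hx hy =>
        simp only [map_add, hx, hy]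
        split_ifs <;> simp
      | tmul x s =>
        simp only [LinearMap.baseChange_tmul, Submodule.subtype_apply]
        rw [homogeneousComponent_of_mem s.2]
        by_cases h : e = d
        · simp [h]
        · simp [h, Ne.symm h]
    have hf : ∀ d (v : (Fin n →₀ ℕ) →₀ D),
        Finsupp.linearCombination D (mono M hM) (v.filter fun β => β.degree = d) =
          (homogeneousComponent d).baseChange D (Finsupp.linearCombination D (mono M hM) v) := by
      intro d v
      induction v using Finsupp.induction_linear with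
      | zero => simp [Finsupp.filter_zero]
      | add a b ha hb => rw [Finsupp.filter_add, map_add, map_add, map_add, ha, hb]
      | single β x =>
        rw [Finsupp.linearCombination_single, map_smul, hπ d _ _ (mono_mem M hM h1 β)]
        split_ifs with h
        · rw [Finsupp.filter_single_of_pos (fun β : Fin n →₀ ℕ => β.degree = d) h, Finsupp.linearCombination_single]
        · rw [Finsupp.filter_single_of_neg (fun β : Fin n →₀ ℕ => β.degree = d) h, map_zero, smul_zero]
    rw [injective_iff_map_eq_zero]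
    intro v hv
    ext β
    have h2 := Submodule.disjoint_def.1 (fr_inj M hM h1 hs β.degree)
      (v.filter fun δ => δ.degree = β.degree) (fun δ hδ => by
        rw [Finsupp.support_filter, Finset.mem_coe, Finset.mem_filter] at hδ
        exact Finset.mem_coe.2 (mem_expo.2 hδ.2)) (by rw [LinearMap.mem_ker, hf, hv, map_zero])
    have h3 := congrArg (fun x : (Fin n →₀ ℕ) →₀ D => x β) h2
    simpa using h3
  · rw [← LinearMap.range_eq_top, eq_top_iff]
    rintro y -
    induction y using TensorProduct.induction_on with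
    | zero => exact zero_mem _
    | add x y hx hy => exact add_mem hx hy
    | tmul x s =>
      rw [s.as_sum, tmul_sum]
      refine Submodule.sum_mem _ fun u _ => ?_
      obtain ⟨v, _, hv⟩ := fr_surj M hM hs u.degree (x ⊗ₜ monomial u (coeff u s))
        (Submodule.tmul_mem_baseChange_of_mem _ (isHomogeneous_monomial _ rfl))
      exact ⟨v, hv⟩

theorem fr_proj (h1 : ∀ i, M i ∈ Bd K D n 1)
    (hs : ∀ k, (1 : D) ⊗ₜ[K] (X k : MvPolynomial (Fin n) K) ∈ Submodule.span D (Set.range M))
    (χ : (Fin n →₀ ℕ) → Polynomial D) (hχ : ∀ β δ, χ (β + δ) = χ β * χ δ)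
    (hcen : ∀ β p, χ β * p = p * χ β) (hk : ∀ k : Fin n, 2 ≤ (k : ℕ) → χ (Finsupp.single k 1) = 0)
    {f0 f1 : MvPolynomial (Fin n) K} {F0 F1 : (Fin n →₀ ℕ) →₀ D}
    (hF0 : Finsupp.linearCombination D (mono M hM) F0 = 1 ⊗ₜ f0)
    (hF1 : Finsupp.linearCombination D (mono M hM) F1 = 1 ⊗ₜ f1) (β : Fin n →₀ ℕ)
    (hβ : mono M hM β ∈ Ideal.span ({(1 : D) ⊗ₜ[K] f0, 1 ⊗ₜ[K] f1} ∪ M '' {k | 2 ≤ (k : ℕ)})) :
    ∃ A B, χ β = A * Finsupp.linearCombination D χ F0 + B * Finsupp.linearCombination D χ F1 := by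
  let Ψ := LinearEquiv.ofBijective _ (fr_bij M hM h1 hs)
  have hΨ : ∀ v, Ψ v = Finsupp.linearCombination D (mono M hM) v := fun _ => rfl
  let P : D ⊗[K] MvPolynomial (Fin n) K →ₗ[D] Polynomial D :=
    Finsupp.linearCombination D χ ∘ₗ Ψ.symm.toLinearMap
  have hP : ∀ v, P (Ψ v) = Finsupp.linearCombination D χ v := fun v => by simp [P]
  have hPm : ∀ δ, P (mono M hM δ) = χ δ := fun δ => by
    have := hP (Finsupp.single δ 1)
    simpa [hΨ] using this
  have hmul : ∀ z δ, P (z * mono M hM δ) = P z * χ δ := by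
    intro z δ
    obtain ⟨v, rfl⟩ := Ψ.surjective z
    induction v using Finsupp.induction_linear with
    | zero => simp
    | add a b ha hb => rw [map_add, add_mul, map_add, map_add, ha, hb, add_mul]
    | single γ x =>
      rw [hΨ, Finsupp.linearCombination_single, smul_eq_tmul_mul, mul_assoc, ← mono_add,
        ← smul_eq_tmul_mul, ← smul_eq_tmul_mul, map_smul, map_smul, hPm, hPm, hχ, smul_mul_assoc]
  have hcf : ∀ (f : MvPolynomial (Fin n) K) y, P (y * 1 ⊗ₜ f) = P y * P (1 ⊗ₜ f) := by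
    intro f y
    obtain ⟨v, rfl⟩ := Ψ.surjective y
    induction v using Finsupp.induction_linear with
    | zero => simp
    | add a b ha hb => rw [map_add, add_mul, map_add, map_add, ha, hb, add_mul]
    | single γ x =>
      rw [hΨ, Finsupp.linearCombination_single, smul_eq_tmul_mul, mul_assoc, ← one_tmul_comm,
        ← smul_eq_tmul_mul, ← smul_eq_tmul_mul, map_smul, map_smul, hmul, hPm, smul_mul_assoc,
        hcen]
  have key : ∀ z ∈ Ideal.span ({(1 : D) ⊗ₜ[K] f0, 1 ⊗ₜ[K] f1} ∪ M '' {k | 2 ≤ (k : ℕ)}),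
      ∀ y, ∃ A B, P (y * z) = A * P (1 ⊗ₜ f0) + B * P (1 ⊗ₜ f1) := by
    intro z hz
    induction hz using Submodule.span_induction with
    | mem z hz =>
      intro y
      rcases hz with (rfl | rfl) | ⟨k, hk', rfl⟩
      · exact ⟨P y, 0, by rw [hcf, zero_mul, add_zero]⟩
      · exact ⟨0, P y, by rw [hcf, zero_mul, zero_add]⟩
      · refine ⟨0, 0, ?_⟩
        rw [← pow_one (M k), ← mono_single M hM, hmul, hk k hk']
        simp
    | zero => exact fun y => ⟨0, 0, by simp⟩
    | add x z _ _ hx hz =>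
      intro y
      obtain ⟨A, B, h⟩ := hx y
      obtain ⟨A', B', h'⟩ := hz y
      exact ⟨A + A', B + B', by rw [mul_add, map_add, h, h', add_mul, add_mul]; abel⟩
    | smul x z _ hz =>
      intro y
      rw [smul_eq_mul, ← mul_assoc]
      exact hz _
  have := key _ hβ 1
  rwa [one_mul, hPm, ← hF0, ← hF1, ← hΨ, ← hΨ, hP, hP] at this

theorem frame2 {m : ℕ} (M : Fin (m + 2) → D ⊗[K] MvPolynomial (Fin (m + 2)) K)
    (hM : ∀ i j, Commute (M i) (M j)) (I : Ideal (MvPolynomial (Fin (m + 2)) K))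
    (h1 : ∀ i, M i ∈ Bd K D (m + 2) 1)
    (hs : ∀ k, (1 : D) ⊗ₜ[K] (X k : MvPolynomial (Fin (m + 2)) K) ∈
      Submodule.span D (Set.range M))
    {c : ℕ} (hc : 2 ≤ c) {a0 a1 b : ℕ} (h0 : 0 < a0) (h01 : a0 ≤ a1)
    (hpow : ∀ i : Fin (m + 2), 2 ≤ (i : ℕ) → (i : ℕ) < c → ∃ u ∈ (ipart I (b + 1)).baseChange D,
      ∃ w : Fin (m + 2) → D ⊗[K] MvPolynomial (Fin (m + 2)) K, (∀ k, w k ∈ Bd K D (m + 2) b) ∧
        M i ^ (b + 1) = u + ∑ k ∈ Finset.univ.filter (fun k : Fin (m + 2) => c ≤ k), w k * M k)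
    {f0 f1 : MvPolynomial (Fin (m + 2)) K} (hf0 : f0 ∈ ipart I a0) (hf1 : f1 ∈ ipart I a1)
    (N : ℕ) (hN : ∀ y ∈ Bd K D (m + 2) N,
      y ∈ Ideal.span ({(1 : D) ⊗ₜ[K] f0, 1 ⊗ₜ[K] f1} ∪ M '' {k | 2 ≤ (k : ℕ)})) :
    ∃ J : Set (Fin (m + 2) →₀ ℕ), (∀ β ∈ J, ∀ i, β + Finsupp.single i 1 ∈ J) ∧
      Finsupp.single 0 a0 ∈ J ∧ Finsupp.single 1 a1 ∈ J ∧
      (∀ i : Fin (m + 2), 2 ≤ (i : ℕ) → (i : ℕ) < c → Finsupp.single i (b + 1) ∈ J) ∧
      ∀ d (T : Finset (Fin (m + 2) →₀ ℕ)), (∀ β, β ∈ T ↔ β ∈ J ∧ β.degree = d) →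
        T.card = finrank K (ipart I d) := by
  classical
  let Ψ := Finsupp.linearCombination D (mono M hM)
  let W : ℕ → Submodule D ((Fin (m + 2) →₀ ℕ) →₀ D) := fun d =>
    Finsupp.supported D D (expo (m + 2) d : Set (Fin (m + 2) →₀ ℕ)) ⊓
      ((ipart I d).baseChange D).comap Ψ
  have hsurj := fr_surj M hM hs
  have hinj := (fr_bij M hM h1 hs).1
  have hshift : ∀ d i, ∀ v ∈ Finsupp.supported D D (expo (m + 2) d : Set (Fin (m + 2) →₀ ℕ)),
      v.mapDomain (· + Finsupp.single i 1) ∈
        Finsupp.supported D D (expo (m + 2) (d + 1) : Set (Fin (m + 2) →₀ ℕ)) := by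
    intro d i v hv γ hγ
    obtain ⟨δ, hδ, rfl⟩ := Finset.mem_image.mp (Finsupp.mapDomain_support hγ)
    have := mem_expo.mp (hv hδ)
    rw [Finset.mem_coe, mem_expo, map_add, this, Finsupp.degree_single]
  have hfin : ∀ d, FiniteDimensional D (W d) := fun d => by
    have : FiniteDimensional D
        (Finsupp.supported D D (expo (m + 2) d : Set (Fin (m + 2) →₀ ℕ))) :=
      Module.Finite.equiv (Finsupp.supportedEquivFinsupp _).symm
    exact Submodule.finiteDimensional_of_le inf_le_left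
  have hW : ∀ d, ∀ w ∈ W d, ∀ β ∈ w.support, β.degree = d := fun d w hw β hβ =>
    mem_expo.1 (hw.1 hβ)
  have hF : ∀ {f a}, f ∈ ipart I a → ∃ F ∈ W a, Ψ F = 1 ⊗ₜ f := by
    intro f a hf
    obtain ⟨F, h2, h3⟩ := hsurj a (1 ⊗ₜ f) (Submodule.tmul_mem_baseChange_of_mem _ hf.2)
    refine ⟨F, ⟨h2, Submodule.mem_comap.2 ?_⟩, h3⟩
    rw [h3]
    exact Submodule.tmul_mem_baseChange_of_mem _ hf
  obtain ⟨F0, hF0, e0⟩ := hF hf0
  obtain ⟨F1, hF1, e1⟩ := hF hf1
  have htl : ∀ k : Fin (m + 2), 2 ≤ (k : ℕ) → tl (Finsupp.single k 1) ≠ 0 := by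
    intro k hk
    rw [tl_single (by rintro rfl; simp at hk) (by rintro rfl; simp at hk)]
    simp
  have hmono : ∀ i, mono M hM (Finsupp.single i N) ∈
      Ideal.span ({(1 : D) ⊗ₜ[K] f0, 1 ⊗ₜ[K] f1} ∪ M '' {k | 2 ≤ (k : ℕ)}) := fun i =>
    hN _ (by simpa [Finsupp.degree_single] using mono_mem M hM h1 (Finsupp.single i N))
  obtain ⟨J, j1, j2, j3, j4, j5⟩ := layer (a := b + 1) hc W hfin h0 h01 hW (by
      rintro d i w ⟨hw1, hw2⟩
      refine ⟨hshift _ i w hw1, Submodule.mem_comap.mpr ?_⟩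
      rw [lc_shift]
      exact bc_mul (p := ipart I d) (r := ipart I (d + 1))
        (fun x hx y hy => ⟨Ideal.mul_mem_right _ _ hx.1, IsHomogeneous.mul hx.2 hy⟩) hw2 (h1 i))
    (by
      intro i hi2 hi
      obtain ⟨u, hu, w, hw, e⟩ := hpow i hi2 hi
      choose v hv hv' using fun k => hsurj _ _ (hw k)
      let r := ∑ k ∈ Finset.univ.filter (fun k : Fin (m + 2) => c ≤ k),
        (v k).mapDomain (· + Finsupp.single k 1)
      have hr : ∀ γ, r γ ≠ 0 → ∃ k : Fin (m + 2), c ≤ (k : ℕ) ∧ γ k ≠ 0 := by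
        intro γ hγ
        rw [Finsupp.finsetSum_apply] at hγ
        obtain ⟨k, hk, hγ⟩ := Finset.exists_ne_zero_of_sum_ne_zero hγ
        obtain ⟨δ, _, rfl⟩ :=
          Finset.mem_image.mp (Finsupp.mapDomain_support (Finsupp.mem_support_iff.mpr hγ))
        exact ⟨k, (Finset.mem_filter.1 hk).2, by simp⟩
      refine ⟨Finsupp.single (Finsupp.single i (b + 1)) 1 - r, ?_, ?_, ?_⟩
      · refine ⟨sub_mem (Finsupp.single_mem_supported _ _ (by simp [mem_expo]))
          (Submodule.sum_mem _ fun k _ => hshift _ k _ (hv k)), ?_⟩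
        refine Submodule.mem_comap.mpr ?_
        rw [map_sub, map_sum]
        simp only [Ψ, lc_shift, Finsupp.linearCombination_single, one_smul, mono_single]
        simp only [hv', e, add_sub_cancel_right]
        exact hu
      · have : r (Finsupp.single i (b + 1)) = 0 := by
          by_contra hne
          obtain ⟨k, hk, hk0⟩ := hr _ hne
          refine hk0 (Finsupp.single_eq_of_ne ?_)
          rintro rfl
          omega
        rw [Finsupp.sub_apply, this, Finsupp.single_eq_same, sub_zero]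
        exact one_ne_zero
      · intro γ hγ
        by_cases hγ' : γ = Finsupp.single i (b + 1)
        · exact Or.inl hγ'
        · refine Or.inr (hr γ fun h => Finsupp.mem_support_iff.mp hγ ?_)
          rw [Finsupp.sub_apply, h, Finsupp.single_eq_of_ne hγ', sub_zero]) hF0 hF1
    (by
      have := fr_proj M hM h1 hs (fun β => if tl β = 0 then Polynomial.X ^ β 1 else 0)
        (fun β δ => by
          simp only [tl_add, Finsupp.add_eq_zero_iff, Finsupp.add_apply, pow_add]
          by_cases hβ : tl β = 0 <;> by_cases hδ : tl δ = 0 <;> simp [hβ, hδ])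
        (fun β p => by
          split_ifs
          · exact Polynomial.X_pow_mul
          · simp)
        (fun k hk => if_neg (htl k hk)) e0 e1 _ (hmono 0)
      simp only [tl_s0, if_true, Finsupp.single_eq_of_ne (Fin.zero_ne_one (n := m)).symm,
        pow_zero] at this
      convert this <;> simp only [prg])
    (by
      by_contra hne
      push Not at hne
      obtain ⟨A, B, h⟩ := fr_proj M hM h1 hs (fun β => if tl β = 0 ∧ β 0 = 0 then 1 else 0)
        (fun β δ => by
          simp only [tl_add, Finsupp.add_eq_zero_iff, Finsupp.add_apply, Nat.add_eq_zero_iff]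
          by_cases hβ : tl β = 0 <;> by_cases hδ : tl δ = 0 <;> by_cases hβ' : β 0 = 0 <;>
            by_cases hδ' : δ 0 = 0 <;> simp [hβ, hδ, hβ', hδ'])
        (fun β p => by split_ifs <;> simp)
        (fun k hk => if_neg fun h => htl k hk h.1) e0 e1 _ (hmono 1)
      have hz : ∀ {F a}, F ∈ W a → F (Finsupp.single 1 a) = 0 → Finsupp.linearCombination D
          (fun β : Fin (m + 2) →₀ ℕ => if tl β = 0 ∧ β 0 = 0 then (1 : Polynomial D) else 0) F
            = 0 := by
        intro F a hFa hF'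
        rw [Finsupp.linearCombination_apply, Finsupp.sum]
        refine Finset.sum_eq_zero fun β hβ => ?_
        rw [if_neg, smul_zero]
        rintro ⟨h2, h3⟩
        have h4 := mk2_tl β
        have h5 := degree_mk2 (tl β) (β 0) (β 1)
        rw [h4, hW _ _ hFa β hβ, h2, h3, map_zero, zero_add, zero_add] at h5
        rw [h2, h3, ← h5] at h4
        refine Finsupp.mem_support_iff.1 hβ ?_
        rw [← h4]
        simpa [mk2] using hF'
      rw [hz hF0 hne.1, hz hF1 hne.2, tl_s1] at h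
      simp at h)
  refine ⟨J, j1, j2, j3, j4, fun d T hT => ?_⟩
  rw [j5 d T hT, ← finrank_bc (D := D)]
  have e : (W d).map Ψ = (ipart I d).baseChange D := by
    apply le_antisymm
    · rintro _ ⟨w, hw, rfl⟩
      exact hw.2
    · intro y hy
      obtain ⟨v, hv, rfl⟩ := hsurj d y (Submodule.baseChange_mono _ inf_le_right hy)
      exact ⟨v, ⟨hv, hy⟩, rfl⟩
  rw [← e]
  exact (LinearEquiv.finrank_eq (Submodule.equivMapOfInjective Ψ hinj _))

end Vale.Agent.P200M
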