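import Mathlib

/-! Growth of left ideals in two variables over a division ring. -/

namespace Vale.Agent.P200M

open Polynomial Module

lemma count_Gotz {D : Type*} [DivisionRing D] (V : Submodule D D[X]) [FiniteDimensional D V]
    {G : D[X]} (hG : G ≠ 0) {N : ℕ} (h : ∀ i < N, X ^ i * G ∈ V) : N ≤ finrank D V := by
  have h1 : LinearIndependent D (fun i : Fin N => (X ^ (i : ℕ) : D[X])) := by
    have := (basisMonomials D).linearIndependent.comp (Fin.val : Fin N → ℕ) Fin.val_injective
    convert this using 1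
    ext1 i
    simp [coe_basisMonomials, monomial_one_right_eq_X_pow]
  have h2 := h1.map' (LinearMap.mulRight D G) (by
    rw [LinearMap.ker_eq_bot]
    intro x y hxy
    exact mul_right_cancel₀ hG hxy)
  have h3 : LinearIndependent D (fun i : Fin N => (⟨X ^ (i : ℕ) * G, h i i.2⟩ : V)) :=
    LinearIndependent.of_comp V.subtype h2
  simpa using h3.fintype_card_le_finrank

theorem gotz {D : Type*} [DivisionRing D] (V V' : Submodule D D[X]) [FiniteDimensional D V']
    (h1 : V ≤ V') (h2 : ∀ v ∈ V, X * v ∈ V') (hd : finrank D V' ≤ finrank D V + 1) :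
    ∃ G : D[X], ∀ v ∈ V', ∃ q : D[X], q.natDegree ≤ finrank D V ∧ v = q * G := by
  classical
  by_cases hV : V = ⊥
  · subst hV
    rw [finrank_bot, zero_add] at hd
    obtain ⟨G, hG⟩ := finrank_le_one_iff.mp hd
    refine ⟨G, fun v hv => ?_⟩
    obtain ⟨c, hc⟩ := hG ⟨v, hv⟩
    refine ⟨C c, by simp, ?_⟩
    have := congrArg Subtype.val hc
    simp only [SetLike.val_smul] at this
    rw [← this, smul_eq_C_mul]
  have : FiniteDimensional D V := Submodule.finiteDimensional_of_le h1
  obtain ⟨s, hs⟩ : V.FG := Module.Finite.iff_fg.mp this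
  have hsne : (s : Set D[X]).Nonempty := by
    rw [Set.nonempty_iff_ne_empty]
    intro h
    exact hV (by rw [← hs, h, Submodule.span_empty])
  obtain ⟨v0, hv0s, hmax⟩ := exists_degree_le_of_mem_span_of_finite s.finite_toSet hsne
  rw [hs] at hmax
  have hv0 : v0 ∈ V := hs ▸ Submodule.subset_span hv0s
  obtain ⟨u, hu, hu0⟩ := Submodule.exists_mem_ne_zero_of_ne_bot hV
  have hv0ne : v0 ≠ 0 := by
    rintro rfl
    have := hmax u hu
    rw [degree_zero, le_bot_iff, degree_eq_bot] at this
    exact hu0 this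
  have hmax' : ∀ p ∈ V, p.natDegree ≤ v0.natDegree := fun p hp =>
    natDegree_le_natDegree (hmax p hp)
  have hnot : X * v0 ∉ V := fun h => by
    have := hmax' _ h
    rw [natDegree_X_mul hv0ne] at this
    omega
  have hle : V ⊔ Submodule.span D {X * v0} ≤ V' :=
    sup_le h1 ((Submodule.span_singleton_le_iff_mem _ _).mpr (h2 v0 hv0))
  have : FiniteDimensional D (V ⊔ Submodule.span D {X * v0} : Submodule D D[X]) :=
    Submodule.finiteDimensional_of_le hle
  have hlt : V < V ⊔ Submodule.span D {X * v0} := by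
    refine lt_of_le_of_ne le_sup_left fun h => hnot ?_
    rw [h]
    exact Submodule.mem_sup_right (Submodule.mem_span_singleton_self _)
  have heq : V ⊔ Submodule.span D {X * v0} = V' :=
    Submodule.eq_of_le_of_finrank_le hle
      (by have := Submodule.finrank_lt_finrank_of_lt hlt; omega)
  have hdec : ∀ v ∈ V', ∃ w ∈ V, ∃ c : D, v = w + c • (X * v0) := by
    intro v hv
    rw [← heq] at hv
    obtain ⟨w, hw, z, hz, rfl⟩ := Submodule.mem_sup.mp hv
    obtain ⟨c, rfl⟩ := Submodule.mem_span_singleton.mp hz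
    exact ⟨w, hw, c, rfl⟩
  have hA : ∀ v ∈ V, v.natDegree < v0.natDegree → X * v ∈ V := by
    intro v hv hlt
    obtain ⟨w, hw, c, hc⟩ := hdec _ (h2 v hv)
    have e := congrArg (fun p : D[X] => p.coeff (v0.natDegree + 1)) hc
    simp only [coeff_add, coeff_smul, coeff_X_mul, smul_eq_mul] at e
    rw [coeff_eq_zero_of_natDegree_lt hlt,
      coeff_eq_zero_of_natDegree_lt (Nat.lt_succ_of_le (hmax' w hw)), zero_add] at e
    have hc0 : c = 0 := by
      rcases mul_eq_zero.mp e.symm with h | h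
      · exact h
      · exact absurd (leadingCoeff_eq_zero.mp h) hv0ne
    rw [hc, hc0, zero_smul, add_zero]
    exact hw
  have hex : ∃ d, ∃ G ∈ V, G ≠ 0 ∧ G.natDegree = d := ⟨_, v0, hv0, hv0ne, rfl⟩
  obtain ⟨G, hG, hG0, hGd⟩ := Nat.find_spec hex
  have hmin : ∀ p ∈ V, p ≠ 0 → G.natDegree ≤ p.natDegree := fun p hp hp0 => by
    rw [hGd]
    exact Nat.find_min' hex ⟨p, hp, hp0, rfl⟩
  have hB : ∀ i, G.natDegree + i ≤ v0.natDegree → X ^ i * G ∈ V := by
    intro i
    induction i with
    | zero => intro _; simpa using hG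
    | succ i ih =>
      intro hi
      rw [pow_succ', mul_assoc]
      apply hA _ (ih (by omega))
      rw [natDegree_X_pow_mul i hG0]
      omega
  have hC : ∀ n, ∀ v ∈ V, v.natDegree = n →
      ∃ q : D[X], q.natDegree ≤ v0.natDegree - G.natDegree ∧ v = q * G := by
    intro n
    induction n using Nat.strong_induction_on with
    | _ n ih =>
      intro v hv hn
      by_cases hv0' : v = 0
      · exact ⟨0, by simp, by simp [hv0']⟩
      have a1 := hmin v hv hv0'
      have a2 := hmax' v hv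
      set c : D := v.leadingCoeff * (G.leadingCoeff)⁻¹ with hc
      have hlG : G.leadingCoeff ≠ 0 := leadingCoeff_ne_zero.mpr hG0
      have hc0 : c ≠ 0 := mul_ne_zero (leadingCoeff_ne_zero.mpr hv0') (inv_ne_zero hlG)
      set t : D[X] := C c * X ^ (n - G.natDegree) with ht
      have ht0 : t ≠ 0 := mul_ne_zero (C_ne_zero.mpr hc0) (pow_ne_zero _ X_ne_zero)
      have htd : t.natDegree = n - G.natDegree := natDegree_C_mul_X_pow _ _ hc0
      have htV : t * G ∈ V := by
        rw [ht, mul_assoc, ← smul_eq_C_mul]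
        exact V.smul_mem _ (hB _ (by omega))
      have hdeg : v.degree = (t * G).degree := by
        rw [degree_eq_natDegree hv0', degree_eq_natDegree (mul_ne_zero ht0 hG0),
          natDegree_mul ht0 hG0, htd]
        congr 1
        omega
      have hlc : v.leadingCoeff = (t * G).leadingCoeff := by
        rw [leadingCoeff_mul, ht, leadingCoeff_C_mul_X_pow, hc, mul_assoc, inv_mul_cancel₀ hlG,
          mul_one]
      have hsub := degree_sub_lt_left hdeg hv0' hlc
      by_cases hw : v - t * G = 0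
      · exact ⟨t, by omega, sub_eq_zero.mp hw⟩
      obtain ⟨q, hq, hq'⟩ := ih _ (hn ▸ natDegree_lt_natDegree hw hsub) _ (V.sub_mem hv htV) rfl
      refine ⟨q + t, (natDegree_add_le _ _).trans (max_le hq (by omega)), ?_⟩
      rw [add_mul, ← hq', sub_add_cancel]
  have hD : v0.natDegree - G.natDegree + 1 ≤ finrank D V :=
    count_Gotz V hG0 fun i hi => hB i (by have := hmax' G hG; omega)
  refine ⟨G, fun v hv => ?_⟩
  obtain ⟨w, hw, c, rfl⟩ := hdec v hv
  obtain ⟨q, hq, rfl⟩ := hC _ w hw rfl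
  obtain ⟨q0, hq0, hq0'⟩ := hC _ v0 hv0 rfl
  refine ⟨q + C c * (X * q0), (natDegree_add_le _ _).trans (max_le (by omega) ?_), ?_⟩
  · refine (natDegree_C_mul_le _ _).trans (natDegree_mul_le.trans ?_)
    have : (X : D[X]).natDegree ≤ 1 := natDegree_X_le
    omega
  · rw [add_mul, mul_assoc, mul_assoc, ← hq0', smul_eq_C_mul]

theorem drop {D : Type*} [DivisionRing D] (V V' : Submodule D D[X]) [FiniteDimensional D V']
    (h1 : V ≤ V') (h2 : ∀ v ∈ V, X * v ∈ V') {E a0 a1 : ℕ} (p0 p1 : D[X]) (h0 : a0 ≤ E)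
    (h1' : a1 ≤ E) (hp0 : ∀ j ≤ E - a0, X ^ j * p0 ∈ V') (hp1 : ∀ j ≤ E - a1, X ^ j * p1 ∈ V')
    (H1 : ∃ A B : D[X], 1 = A * p0 + B * p1) (H2 : p0.coeff a0 ≠ 0 ∨ p1.coeff a1 ≠ 0)
    (hlt : finrank D V < E) : finrank D V + 2 ≤ finrank D V' := by
  by_contra hcon
  obtain ⟨G, hG⟩ := gotz V V' h1 h2 (by omega)
  obtain ⟨A, B, hAB⟩ := H1
  obtain ⟨q0, -, e0⟩ := hG _ (hp0 0 (Nat.zero_le _))
  obtain ⟨q1, -, e1⟩ := hG _ (hp1 0 (Nat.zero_le _))
  rw [pow_zero, one_mul] at e0 e1
  have hone : (1 : D[X]) = (A * q0 + B * q1) * G := by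
    rw [add_mul, mul_assoc, mul_assoc, ← e0, ← e1, ← hAB]
  have hGd : G.natDegree = 0 := by
    have hne : (A * q0 + B * q1) * G ≠ 0 := hone ▸ one_ne_zero
    have := congrArg natDegree hone
    rw [natDegree_one, natDegree_mul (left_ne_zero_of_mul hne) (right_ne_zero_of_mul hne)] at this
    omega
  have key : ∀ (p : D[X]) (a : ℕ), a ≤ E → X ^ (E - a) * p ∈ V' → p.coeff a = 0 := by
    intro p a ha hp
    obtain ⟨q, hq, e⟩ := hG _ hp
    have hdeg : (X ^ (E - a) * p).natDegree < E := by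
      rw [e]
      have := natDegree_mul_le (p := q) (q := G)
      omega
    have := coeff_eq_zero_of_natDegree_lt hdeg
    rwa [show E = a + (E - a) by omega, Nat.add_sub_cancel_left, coeff_X_pow_mul] at this
  rcases H2 with h | h
  · exact h (key p0 a0 h0 (hp0 _ le_rfl))
  · exact h (key p1 a1 h1' (hp1 _ le_rfl))

end Vale.Agent.P200M
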