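import Vale.Agent.P200.Frame

/-! Compression of the two variable layers of a monomial ideal. -/

namespace Vale.Agent.P200M

open Finset

variable {m : ℕ}

/-- the exponents of the variables other than the first two -/
noncomputable def tl (β : Fin (m + 2) →₀ ℕ) : Fin (m + 2) →₀ ℕ := (β.erase 0).erase 1

/-- exponent vector with prescribed first two entries -/
noncomputable def mk2 (γ : Fin (m + 2) →₀ ℕ) (i j : ℕ) : Fin (m + 2) →₀ ℕ :=
  γ + Finsupp.single 0 i + Finsupp.single 1 j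

theorem tl_apply (β : Fin (m + 2) →₀ ℕ) (k : Fin (m + 2)) :
    tl β k = if k = 0 ∨ k = 1 then 0 else β k := by
  simp only [tl, Finsupp.erase_apply]
  by_cases h0 : k = 0 <;> by_cases h1 : k = 1 <;> simp [h0, h1]

theorem tl_add (β δ : Fin (m + 2) →₀ ℕ) : tl (β + δ) = tl β + tl δ := by
  simp [tl, Finsupp.erase_add]

theorem tl_tl (β : Fin (m + 2) →₀ ℕ) : tl (tl β) = tl β := by
  ext k
  simp only [tl_apply]
  split_ifs <;> rfl

theorem tl_zero : tl (0 : Fin (m + 2) →₀ ℕ) = 0 := by simp [tl]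

theorem tl_s0 (i : ℕ) : tl (Finsupp.single (0 : Fin (m + 2)) i) = 0 := by simp [tl]

theorem tl_s1 (i : ℕ) : tl (Finsupp.single (1 : Fin (m + 2)) i) = 0 := by
  ext k
  rw [tl_apply]
  split_ifs with h
  · rfl
  · rw [Finsupp.single_eq_of_ne fun h' => h (Or.inr h')]
    rfl

theorem tl_single {k : Fin (m + 2)} (h0 : k ≠ 0) (h1 : k ≠ 1) (i : ℕ) :
    tl (Finsupp.single k i) = Finsupp.single k i := by
  ext l
  rw [tl_apply]
  split_ifs with h
  · rw [Finsupp.single_eq_of_ne]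
    rintro rfl
    tauto
  · rfl

theorem tl_mk2 {γ : Fin (m + 2) →₀ ℕ} (h : tl γ = γ) (i j : ℕ) : tl (mk2 γ i j) = γ := by
  rw [mk2, tl_add, tl_add, tl_s0, tl_s1, h, add_zero, add_zero]

theorem mk2_0 {γ : Fin (m + 2) →₀ ℕ} (h : tl γ = γ) (i j : ℕ) : mk2 γ i j 0 = i := by
  have : γ 0 = 0 := by rw [← h, tl_apply]; simp
  simp [mk2, this]

theorem mk2_1 {γ : Fin (m + 2) →₀ ℕ} (h : tl γ = γ) (i j : ℕ) : mk2 γ i j 1 = j := by
  have : γ 1 = 0 := by rw [← h, tl_apply]; simp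
  simp [mk2, this]

theorem mk2_tl (β : Fin (m + 2) →₀ ℕ) : mk2 (tl β) (β 0) (β 1) = β := by
  ext k
  by_cases h0 : k = 0
  · rw [h0, mk2_0 (tl_tl β)]
  by_cases h1 : k = 1
  · rw [h1, mk2_1 (tl_tl β)]
  simp [mk2, tl_apply, h0, h1]

theorem degree_mk2 (γ : Fin (m + 2) →₀ ℕ) (i j : ℕ) :
    (mk2 γ i j).degree = γ.degree + i + j := by
  simp [mk2, map_add, Finsupp.degree_single]

open Classical in
/-- the part of a layer in degree `e` -/
noncomputable def lay (J : Set (Fin (m + 2) →₀ ℕ)) (γ : Fin (m + 2) →₀ ℕ) (e : ℕ) : Finset ℕ :=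
  (range (e + 1)).filter fun j => mk2 γ (e - j) j ∈ J

theorem mem_lay {J : Set (Fin (m + 2) →₀ ℕ)} {γ : Fin (m + 2) →₀ ℕ} {e j : ℕ} :
    j ∈ lay J γ e ↔ j ≤ e ∧ mk2 γ (e - j) j ∈ J := by
  simp [lay]

theorem card_layers (J : Set (Fin (m + 2) →₀ ℕ)) (d : ℕ) (T : Finset (Fin (m + 2) →₀ ℕ))
    (hT : ∀ β, β ∈ T ↔ β ∈ J ∧ β.degree = d) :
    T.card = ∑ γ ∈ (P200.expo (m + 2) d).image tl, (lay J γ (d - γ.degree)).card := by
  classical
  rw [card_eq_sum_card_fiberwise (f := tl) (t := (P200.expo (m + 2) d).image tl)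
    fun β hβ => mem_coe.2 (mem_image_of_mem _ (P200.mem_expo.2 ((hT β).1 hβ).2))]
  refine sum_congr rfl fun γ hγ => ?_
  obtain ⟨β0, hβ0, rfl⟩ := mem_image.1 hγ
  have h0 := degree_mk2 (tl β0) (β0 0) (β0 1)
  rw [mk2_tl, P200.mem_expo.1 hβ0] at h0
  symm
  refine card_bij (fun j _ => mk2 (tl β0) (d - (tl β0).degree - j) j) ?_ ?_ ?_
  · intro j hj
    rw [mem_lay] at hj
    rw [mem_filter, hT, degree_mk2, tl_mk2 (tl_tl β0)]
    exact ⟨⟨hj.2, by omega⟩, rfl⟩
  · intro i _ j _ h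
    have := congrArg (fun x : Fin (m + 2) →₀ ℕ => x 1) h
    simpa only [mk2_1 (tl_tl β0)] using this
  · intro β hβ
    rw [mem_filter, hT] at hβ
    have h1 := degree_mk2 (tl β) (β 0) (β 1)
    rw [mk2_tl, hβ.1.2, hβ.2] at h1
    have h2 : mk2 (tl β0) (d - (tl β0).degree - β 1) (β 1) = β := by
      rw [show d - (tl β0).degree - β 1 = β 0 by omega, ← hβ.2, mk2_tl]
    exact ⟨β 1, mem_lay.2 ⟨by omega, by rw [h2]; exact hβ.1.1⟩, h2⟩

theorem compress (J0 : Set (Fin (m + 2) →₀ ℕ))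
    (hJ : ∀ β ∈ J0, ∀ i, β + Finsupp.single i 1 ∈ J0) {a0 a1 : ℕ} (h0 : 0 < a0) (h01 : a0 ≤ a1)
    (h2 : 0 < (lay J0 0 a0).card)
    (h3 : ∀ γ, tl γ = γ → ∀ e, a1 ≤ e + 1 → (lay J0 γ e).card < e + 1 →
      (lay J0 γ e).card + 2 ≤ (lay J0 γ (e + 1)).card) :
    ∃ J : Set (Fin (m + 2) →₀ ℕ), (∀ β ∈ J, ∀ i, β + Finsupp.single i 1 ∈ J) ∧
      Finsupp.single 0 a0 ∈ J ∧ Finsupp.single 1 a1 ∈ J ∧ (∀ γ, tl γ = γ → γ ∈ J0 → γ ∈ J) ∧
      ∀ γ, tl γ = γ → ∀ e, (lay J γ e).card = (lay J0 γ e).card := by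
  classical
  let u : (Fin (m + 2) →₀ ℕ) → ℕ → ℕ := fun γ e => (lay J0 γ e).card
  have U0 : ∀ γ e, u γ e ≤ e + 1 := fun γ e =>
    (card_filter_le _ _).trans (card_range _).le
  have S1 : ∀ γ e, lay J0 γ e ⊆ lay J0 γ (e + 1) := by
    intro γ e j hj
    rw [mem_lay] at hj ⊢
    refine ⟨by omega, ?_⟩
    have := hJ _ hj.2 0
    rwa [mk2, add_right_comm, add_assoc γ, ← Finsupp.single_add,
      show e - j + 1 = e + 1 - j by omega] at this
  have U1 : ∀ γ e, u γ e ≤ u γ (e + 1) := fun γ e => card_le_card (S1 γ e)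
  have U2 : ∀ γ e, 0 < u γ e → u γ e + 1 ≤ u γ (e + 1) := by
    intro γ e h
    have hne : (lay J0 γ e).Nonempty := card_pos.1 h
    refine card_lt_card ⟨S1 γ e, fun hs => ?_⟩
    have hj := mem_lay.1 (max'_mem _ hne)
    have h1 : (lay J0 γ e).max' hne + 1 ∈ lay J0 γ (e + 1) := by
      rw [mem_lay]
      refine ⟨by omega, ?_⟩
      have := hJ _ hj.2 1
      rwa [mk2, add_assoc _ _ (Finsupp.single 1 1), ← Finsupp.single_add,
        show e - (lay J0 γ e).max' hne = e + 1 - ((lay J0 γ e).max' hne + 1) by omega] at this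
    have := le_max' _ _ (hs h1)
    omega
  have U4 : ∀ γ e k, u γ e ≤ u (γ + Finsupp.single k 1) e := by
    intro γ e k
    refine card_le_card fun j hj => ?_
    rw [mem_lay] at hj ⊢
    refine ⟨hj.1, ?_⟩
    have := hJ _ hj.2 k
    rwa [mk2, add_right_comm _ _ (Finsupp.single k 1), add_right_comm γ] at this
  have U3 : ∀ γ, tl γ = γ → ∀ e, a1 ≤ e + 1 → u γ e < e + 1 → u γ e + 2 ≤ u γ (e + 1) := h3
  have H : ∀ γ, tl γ = γ → ∀ e, e + 1 ≤ min (e + 1) a1 + u γ e := by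
    intro γ hγ e
    induction e with
    | zero => omega
    | succ e ih =>
      have := U2 γ e
      have := U3 γ hγ e
      have := U0 γ e
      omega
  refine ⟨{β | a1 ≤ β 1 ∨
    β 1 + (β 0 + β 1 + 1) < min (β 0 + β 1 + 1) a1 + u (tl β) (β 0 + β 1)}, ?_, ?_, ?_, ?_, ?_⟩
  · intro β hβ i
    simp only [Set.mem_ofPred_eq] at hβ ⊢
    have e1 := U1 (tl β) (β 0 + β 1)
    have e2 := U2 (tl β) (β 0 + β 1)
    have e3 := U3 (tl β) (tl_tl β) (β 0 + β 1)
    have e0 := U0 (tl β) (β 0 + β 1)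
    by_cases hi0 : i = 0
    · subst hi0
      rw [tl_add, tl_s0, add_zero]
      simp only [Finsupp.add_apply, Finsupp.single_eq_same,
        Finsupp.single_eq_of_ne (Fin.zero_ne_one (n := m)).symm, add_zero]
      rw [show β 0 + 1 + β 1 = β 0 + β 1 + 1 by ring]
      omega
    by_cases hi1 : i = 1
    · subst hi1
      rw [tl_add, tl_s1, add_zero]
      simp only [Finsupp.add_apply, Finsupp.single_eq_same,
        Finsupp.single_eq_of_ne (Fin.zero_ne_one (n := m)), add_zero]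
      rw [show β 0 + (β 1 + 1) = β 0 + β 1 + 1 by ring]
      omega
    rw [tl_add, tl_single hi0 hi1]
    simp only [Finsupp.add_apply, Finsupp.single_eq_of_ne (Ne.symm hi0),
      Finsupp.single_eq_of_ne (Ne.symm hi1), add_zero]
    have := U4 (tl β) (β 0 + β 1) i
    omega
  · simp only [Set.mem_ofPred_eq, tl_s0, Finsupp.single_eq_same,
      Finsupp.single_eq_of_ne (Fin.zero_ne_one (n := m)).symm, add_zero, zero_add]
    obtain ⟨e, rfl⟩ : ∃ e, a0 = e + 1 := ⟨a0 - 1, by omega⟩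
    have e2 := U2 0 e
    have e3 := U3 0 tl_zero e
    have e0 := U0 0 e
    have h2' : 0 < u 0 (e + 1) := h2
    omega
  · exact Or.inl (by simp)
  · intro γ hγ hγ0
    have e0 : γ 0 = 0 := by rw [← hγ, tl_apply]; simp
    have e1 : γ 1 = 0 := by rw [← hγ, tl_apply]; simp
    simp only [Set.mem_ofPred_eq, hγ, e0, e1, add_zero, zero_add]
    have : 0 < u γ 0 := card_pos.2 ⟨0, mem_lay.2 ⟨le_rfl, by simpa [mk2] using hγ0⟩⟩
    omega
  · intro γ hγ e
    have e0 := U0 γ e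
    have e1 := H γ hγ e
    change _ = u γ e
    rw [← card_range (u γ e)]
    have : lay {β | a1 ≤ β 1 ∨
        β 1 + (β 0 + β 1 + 1) < min (β 0 + β 1 + 1) a1 + u (tl β) (β 0 + β 1)} γ e =
        range (min (e + 1) a1 + u γ e - (e + 1)) ∪ Ico a1 (e + 1) := by
      ext j
      rw [mem_lay, mem_union, mem_range, mem_Ico]
      simp only [Set.mem_ofPred_eq, tl_mk2 hγ, mk2_0 hγ, mk2_1 hγ]
      constructor
      · rintro ⟨h1, h⟩
        rw [Nat.sub_add_cancel h1] at h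
        omega
      · intro h
        have h1 : j ≤ e := by omega
        rw [Nat.sub_add_cancel h1]
        omega
    rw [this, card_union_of_disjoint, card_range, card_range, Nat.card_Ico]
    · omega
    · rw [disjoint_left]
      intro j hj hj'
      rw [mem_range] at hj
      rw [mem_Ico] at hj'
      omega

end Vale.Agent.P200M
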