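import Vale.Agent.P200M.LayA
import Vale.Agent.P200M.Gotz

/-! Layers of a left ideal. -/

namespace Vale.Agent.P200M

open Polynomial Module

variable {D : Type*} [DivisionRing D] {m : ℕ}

theorem card_lead_poly (V : Submodule D D[X]) [FiniteDimensional D V] (T : Finset ℕ)
    (hT : ∀ j, j ∈ T ↔ ∃ p ∈ V, p.coeff j ≠ 0 ∧ ∀ i, p.coeff i ≠ 0 → j ≤ i) :
    T.card = finrank D V := by
  let φ := (basisMonomials D).repr
  have hφ : ∀ p j, φ p j = p.coeff j := fun _ _ => rfl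
  rw [← LinearEquiv.finrank_map_eq φ V]
  refine P200.card_lead id Function.injective_id _ T fun j => ?_
  rw [hT]
  constructor
  · rintro ⟨p, hp, h1, h2⟩
    exact ⟨φ p, ⟨p, hp, rfl⟩, h1, fun i hi => h2 i (Finsupp.mem_support_iff.1 hi)⟩
  · rintro ⟨_, ⟨p, hp, rfl⟩, h1, h2⟩
    exact ⟨p, hp, h1, fun i hi => h2 i (Finsupp.mem_support_iff.2 hi)⟩

open Classical in
/-- projection on a layer -/
noncomputable def prg (D : Type*) [DivisionRing D] (γ : Fin (m + 2) →₀ ℕ) :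
    ((Fin (m + 2) →₀ ℕ) →₀ D) →ₗ[D] D[X] :=
  Finsupp.linearCombination D fun β => if tl β = γ then X ^ β 1 else 0

theorem prg_coeff {γ : Fin (m + 2) →₀ ℕ} (hγ : tl γ = γ) {e : ℕ} {w : (Fin (m + 2) →₀ ℕ) →₀ D}
    (hw : ∀ β ∈ w.support, β.degree = e + γ.degree) (i : ℕ) :
    (prg D γ w).coeff i = if i ≤ e then w (mk2 γ (e - i) i) else 0 := by
  classical
  have key : ∀ β ∈ w.support, tl β = γ → β 1 = i → i ≤ e ∧ β = mk2 γ (e - i) i := by
    intro β hβ h1 h2
    have h3 := degree_mk2 (tl β) (β 0) (β 1)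
    rw [mk2_tl, hw β hβ, h1] at h3
    refine ⟨by omega, ?_⟩
    rw [show e - i = β 0 by omega, ← h1, ← h2, mk2_tl]
  rw [prg, Finsupp.linearCombination_apply, Finsupp.sum, finsetSum_coeff]
  split_ifs with hi
  · rw [Finset.sum_eq_single (mk2 γ (e - i) i)]
    · simp [tl_mk2 hγ, mk2_1 hγ]
    · intro β hβ hne
      split_ifs with h1
      · rw [coeff_smul, coeff_X_pow, if_neg, smul_zero]
        intro h2
        exact hne (key β hβ h1 h2.symm).2
      · simp
    · intro h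
      rw [Finsupp.notMem_support_iff.1 h]
      simp
  · refine Finset.sum_eq_zero fun β hβ => ?_
    split_ifs with h1
    · rw [coeff_smul, coeff_X_pow, if_neg, smul_zero]
      intro h2
      exact hi (key β hβ h1 h2.symm).1
    · simp

theorem prg_shift {γ : Fin (m + 2) →₀ ℕ} (hγ : tl γ = γ) (γ' : Fin (m + 2) →₀ ℕ) (i j : ℕ)
    (w : (Fin (m + 2) →₀ ℕ) →₀ D) :
    prg D (γ' + γ) (w.mapDomain (· + mk2 γ i j)) = X ^ j * prg D γ' w := by
  induction w using Finsupp.induction_linear with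
  | zero => simp
  | add a b ha hb => rw [Finsupp.mapDomain_add, map_add, map_add, ha, hb, mul_add]
  | single β d =>
    simp only [Finsupp.mapDomain_single, prg, Finsupp.linearCombination_single, tl_add,
      tl_mk2 hγ, add_left_inj, Finsupp.add_apply, mk2_1 hγ]
    split_ifs
    · rw [X_pow_mul, smul_mul_assoc, pow_add]
    · simp

theorem shift_mem {n : ℕ} (W : ℕ → Submodule D ((Fin n →₀ ℕ) →₀ D))
    (hsh : ∀ d i, ∀ w ∈ W d, w.mapDomain (· + Finsupp.single i 1) ∈ W (d + 1))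
    (β : Fin n →₀ ℕ) : ∀ d, ∀ w ∈ W d, w.mapDomain (· + β) ∈ W (d + β.degree) := by
  have hadd : ∀ (β δ : Fin n →₀ ℕ) (w : (Fin n →₀ ℕ) →₀ D),
      w.mapDomain (· + (β + δ)) = (w.mapDomain (· + β)).mapDomain (· + δ) := by
    intro β δ w
    rw [← Finsupp.mapDomain_comp]
    congr 1
    funext x
    exact (add_assoc _ _ _).symm
  induction β using Finsupp.induction_linear with
  | zero =>
    intro d w hw
    simp only [add_zero, map_zero]
    exact (Finsupp.mapDomain_id (v := w)).symm ▸ hw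
  | add β δ hβ hδ =>
    intro d w hw
    rw [hadd, map_add, ← add_assoc]
    exact hδ _ _ (hβ _ _ hw)
  | single i a =>
    intro d w hw
    rw [Finsupp.degree_single]
    induction a with
    | zero =>
      simp only [add_zero, Finsupp.single_zero]
      exact (Finsupp.mapDomain_id (v := w)).symm ▸ hw
    | succ a ih =>
      rw [Finsupp.single_add, hadd]
      exact hsh _ _ _ ih

theorem layer {c : ℕ} (hc : 2 ≤ c) (W : ℕ → Submodule D ((Fin (m + 2) →₀ ℕ) →₀ D))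
    (hfin : ∀ d, FiniteDimensional D (W d)) {a0 a1 a : ℕ} (h0 : 0 < a0) (h01 : a0 ≤ a1)
    (hW : ∀ d, ∀ w ∈ W d, ∀ β ∈ w.support, β.degree = d)
    (hsh : ∀ d i, ∀ w ∈ W d, w.mapDomain (· + Finsupp.single i 1) ∈ W (d + 1))
    (hpow : ∀ i : Fin (m + 2), 2 ≤ (i : ℕ) → (i : ℕ) < c → ∃ w ∈ W a,
      w (Finsupp.single i a) ≠ 0 ∧
        ∀ β ∈ w.support, β = Finsupp.single i a ∨ ∃ k : Fin (m + 2), c ≤ (k : ℕ) ∧ β k ≠ 0)
    {F0 F1 : (Fin (m + 2) →₀ ℕ) →₀ D} (hF0 : F0 ∈ W a0) (hF1 : F1 ∈ W a1)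
    (H1 : ∃ A B : D[X], 1 = A * prg D 0 F0 + B * prg D 0 F1)
    (H2 : F0 (Finsupp.single 1 a0) ≠ 0 ∨ F1 (Finsupp.single 1 a1) ≠ 0) :
    ∃ J : Set (Fin (m + 2) →₀ ℕ), (∀ β ∈ J, ∀ i, β + Finsupp.single i 1 ∈ J) ∧
      Finsupp.single 0 a0 ∈ J ∧ Finsupp.single 1 a1 ∈ J ∧
      (∀ i : Fin (m + 2), 2 ≤ (i : ℕ) → (i : ℕ) < c → Finsupp.single i a ∈ J) ∧
      ∀ d (T : Finset (Fin (m + 2) →₀ ℕ)), (∀ β, β ∈ T ↔ β ∈ J ∧ β.degree = d) →
        T.card = finrank D (W d) := by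
  classical
  let o : MonomialOrder (Fin (m + 2)) := MonomialOrder.lex
  let κ' : (Fin (m + 2) →₀ ℕ) → ℕ ×ₗ o.syn := fun β =>
    toLex (∑ k ∈ Finset.univ.filter (fun k : Fin (m + 2) => c ≤ k), β k, o.toSyn β)
  have hκ' : Function.Injective κ' := by
    intro β γ h
    have := congrArg (fun x => (ofLex x).2) h
    exact o.toSyn.injective this
  have hκa : ∀ β γ e, κ' β ≤ κ' γ → κ' (β + e) ≤ κ' (γ + e) := by
    intro β γ e h
    simp only [κ', Prod.Lex.toLex_le_toLex, Finsupp.add_apply, Finset.sum_add_distrib,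
      map_add] at h ⊢
    rcases h with h | ⟨h, h'⟩
    · left; omega
    · right; exact ⟨by omega, by gcongr⟩
  have hκ0 : ∀ β, κ' 0 ≤ κ' β := by
    intro β
    simp only [κ', Prod.Lex.toLex_le_toLex, Finsupp.coe_zero, Pi.zero_apply,
      Finset.sum_const_zero, map_zero]
    rcases Nat.eq_zero_or_pos (∑ k ∈ Finset.univ.filter (fun k : Fin (m + 2) => c ≤ k), β k)
      with h | h
    · right; exact ⟨h.symm, o.bot_eq_zero ▸ bot_le⟩
    · left; exact h
  let κ : (Fin (m + 2) →₀ ℕ) → (ℕ ×ₗ o.syn) ×ₗ (ℕ ×ₗ ℕ) := fun β =>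
    toLex (κ' (tl β), toLex (β 1, β 0))
  have hle : ∀ β δ, κ β ≤ κ δ ↔ κ' (tl β) < κ' (tl δ) ∨
      tl β = tl δ ∧ (β 1 < δ 1 ∨ β 1 = δ 1 ∧ β 0 ≤ δ 0) := by
    intro β δ
    simp only [κ, Prod.Lex.toLex_le_toLex, hκ'.eq_iff]
  have hκ : Function.Injective κ := by
    intro β δ h
    have h1 : tl β = tl δ := hκ' (congrArg (fun x => (ofLex x).1) h)
    have h2 : β 1 = δ 1 := congrArg (fun x => (ofLex (ofLex x).2).1) h
    have h3 : β 0 = δ 0 := congrArg (fun x => (ofLex (ofLex x).2).2) h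
    rw [← mk2_tl β, h1, h2, h3, mk2_tl]
  let J0 : Set (Fin (m + 2) →₀ ℕ) :=
    {β | ∃ w ∈ W β.degree, w β ≠ 0 ∧ ∀ δ ∈ w.support, κ β ≤ κ δ}
  let V : (Fin (m + 2) →₀ ℕ) → ℕ → Submodule D D[X] := fun γ e =>
    (W (e + γ.degree) ⊓ Finsupp.supported D D {δ | κ' γ ≤ κ' (tl δ)}).map (prg D γ)
  have hVfin : ∀ γ e, FiniteDimensional D (V γ e) := fun γ e => by
    have := hfin (e + γ.degree)
    have : FiniteDimensional D
        (W (e + γ.degree) ⊓ Finsupp.supported D D {δ | κ' γ ≤ κ' (tl δ)} :) :=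
      Submodule.finiteDimensional_of_le inf_le_left
    infer_instance
  have hJ0 : ∀ β ∈ J0, ∀ i, β + Finsupp.single i 1 ∈ J0 := by
    rintro β ⟨w, hw, hw0, hwm⟩ i
    refine ⟨w.mapDomain (· + Finsupp.single i 1), ?_, ?_, ?_⟩
    · rw [map_add, Finsupp.degree_single]
      exact hsh _ _ _ hw
    · rwa [Finsupp.mapDomain_apply (add_left_injective _)]
    · intro γ hγ
      obtain ⟨δ, hδ, rfl⟩ := Finset.mem_image.mp (Finsupp.mapDomain_support hγ)
      have h1 := hwm δ hδ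
      rw [hle] at h1 ⊢
      simp only [tl_add, Finsupp.add_apply]
      rcases h1 with h1 | ⟨h1, h2⟩
      · left
        refine lt_of_le_of_ne (hκa _ _ _ h1.le) fun h => h1.ne ?_
        rw [add_right_cancel (hκ' h)]
      · right
        exact ⟨by rw [h1], by omega⟩
  have hcard : ∀ γ, tl γ = γ → ∀ e, (lay J0 γ e).card = finrank D (V γ e) := by
    intro γ hγ e
    have := hVfin γ e
    refine card_lead_poly _ _ fun j => ?_
    rw [mem_lay]
    constructor
    · rintro ⟨hj, w, hw, hw0, hwm⟩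
      rw [degree_mk2, show γ.degree + (e - j) + j = e + γ.degree by omega] at hw
      refine ⟨_, ⟨w, ⟨hw, fun δ hδ => ?_⟩, rfl⟩, ?_, fun i hi => ?_⟩
      · have h1 := hwm δ hδ
        rw [hle, tl_mk2 hγ] at h1
        rcases h1 with h1 | ⟨h1, _⟩
        · exact h1.le
        · exact (congrArg κ' h1).le
      · rwa [prg_coeff hγ (hW _ _ hw), if_pos hj]
      · rw [prg_coeff hγ (hW _ _ hw)] at hi
        split_ifs at hi with h
        · have h1 := hwm _ (Finsupp.mem_support_iff.2 hi)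
          rw [hle, tl_mk2 hγ, tl_mk2 hγ, mk2_1 hγ, mk2_1 hγ] at h1
          rcases h1 with h1 | ⟨_, h1⟩
          · exact absurd h1 (lt_irrefl _)
          · omega
        · exact absurd rfl hi
    · rintro ⟨_, ⟨w, ⟨hw, hws⟩, rfl⟩, h1, h2⟩
      rw [prg_coeff hγ (hW _ _ hw)] at h1
      split_ifs at h1 with hj
      swap
      · exact absurd rfl h1
      refine ⟨hj, w, ?_, h1, fun δ hδ => ?_⟩
      · rwa [degree_mk2, show γ.degree + (e - j) + j = e + γ.degree by omega]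
      · rw [hle, tl_mk2 hγ, mk2_1 hγ, mk2_0 hγ]
        rcases (show κ' γ ≤ κ' (tl δ) from hws hδ).lt_or_eq with h3 | h3
        · exact Or.inl h3
        · have h4 := hκ' h3
          have h5 := degree_mk2 (tl δ) (δ 0) (δ 1)
          rw [mk2_tl, hW _ _ hw δ hδ, ← h4] at h5
          have h6 := h2 (δ 1) (by
            rw [prg_coeff hγ (hW _ _ hw), if_pos (by omega), show e - δ 1 = δ 0 by omega, h4,
              mk2_tl]
            exact Finsupp.mem_support_iff.1 hδ)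
          exact Or.inr ⟨h4, by omega⟩
  have hV : ∀ γ, tl γ = γ → ∀ γ' e i j, ∀ p ∈ V γ' e, X ^ j * p ∈ V (γ' + γ) (e + i + j) := by
    rintro γ hγ γ' e i j _ ⟨w, ⟨hw, hws⟩, rfl⟩
    refine ⟨w.mapDomain (· + mk2 γ i j), ⟨?_, fun δ hδ => ?_⟩, prg_shift hγ _ _ _ _⟩
    · have := shift_mem W hsh (mk2 γ i j) _ _ hw
      rwa [degree_mk2, show e + γ'.degree + (γ.degree + i + j) =
        e + i + j + (γ' + γ).degree by rw [map_add]; ring] at this
    · obtain ⟨β, hβ, rfl⟩ := Finset.mem_image.mp (Finsupp.mapDomain_support hδ)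
      change κ' (γ' + γ) ≤ κ' (tl (β + mk2 γ i j))
      rw [tl_add, tl_mk2 hγ]
      exact hκa _ _ _ (hws hβ)
  have hp0 : prg D 0 F0 ∈ V 0 a0 := ⟨F0, ⟨by simpa using hF0, fun δ _ => hκ0 _⟩, rfl⟩
  have hp1 : prg D 0 F1 ∈ V 0 a1 := ⟨F1, ⟨by simpa using hF1, fun δ _ => hκ0 _⟩, rfl⟩
  have H2' : (prg D 0 F0).coeff a0 ≠ 0 ∨ (prg D 0 F1).coeff a1 ≠ 0 := by
    rw [prg_coeff tl_zero (e := a0) (by simpa using hW _ _ hF0),
      prg_coeff tl_zero (e := a1) (by simpa using hW _ _ hF1)]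
    simpa [mk2] using H2
  obtain ⟨J, j1, j2, j3, j4, j5⟩ := compress J0 hJ0 h0 h01 (by
      rw [hcard 0 tl_zero]
      have := hVfin 0 a0
      refine finrank_pos_iff_exists_ne_zero.2 ⟨⟨_, hp0⟩, fun h => ?_⟩
      have h1 : prg D 0 F0 = 0 := congrArg Subtype.val h
      obtain ⟨A, B, hAB⟩ := H1
      rw [h1, mul_zero, zero_add] at hAB
      rw [h1] at H2'
      have hB : B ≠ 0 := by rintro rfl; simp at hAB
      have hq : prg D 0 F1 ≠ 0 := by intro h; simp [h] at hAB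
      have h2 := congrArg natDegree hAB
      rw [natDegree_one, natDegree_mul hB hq] at h2
      have h3 := le_natDegree_of_ne_zero (H2'.resolve_left (by simp))
      omega) (by
      intro γ hγ e he hlt
      rw [hcard γ hγ] at hlt ⊢
      rw [hcard γ hγ]
      have := hVfin γ (e + 1)
      refine drop _ _ (fun p hp => ?_) (fun p hp => ?_) (prg D 0 F0) (prg D 0 F1)
        (h01.trans he) he (fun j hj => ?_) (fun j hj => ?_) H1 H2' hlt
      · simpa using hV 0 tl_zero γ e 1 0 p hp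
      · simpa using hV 0 tl_zero γ e 0 1 p hp
      · have := hV γ hγ 0 a0 (e + 1 - a0 - j) j _ hp0
        rwa [zero_add, show a0 + (e + 1 - a0 - j) + j = e + 1 by omega] at this
      · have := hV γ hγ 0 a1 (e + 1 - a1 - j) j _ hp1
        rwa [zero_add, show a1 + (e + 1 - a1 - j) + j = e + 1 by omega] at this)
  refine ⟨J, j1, j2, j3, fun i hi hic => ?_, fun d T hT => ?_⟩
  · have hi0 : i ≠ 0 := by rintro rfl; simp at hi
    have hi1 : i ≠ 1 := by rintro rfl; simp at hi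
    obtain ⟨w, hw, hw0, hws⟩ := hpow i hi hic
    refine j4 _ (tl_single hi0 hi1 a) ⟨w, by rwa [Finsupp.degree_single], hw0, fun δ hδ => ?_⟩
    rcases hws δ hδ with rfl | ⟨k, hk, hk0⟩
    · exact le_rfl
    · rw [hle, tl_single hi0 hi1]
      left
      simp only [κ', Prod.Lex.toLex_lt_toLex]
      left
      have e1 : ∑ k ∈ Finset.univ.filter (fun k : Fin (m + 2) => c ≤ k),
          (Finsupp.single i a) k = 0 := by
        refine Finset.sum_eq_zero fun k hk => Finsupp.single_eq_of_ne ?_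
        rintro rfl
        simp at hk; omega
      rw [e1]
      refine lt_of_lt_of_le ?_ (Finset.single_le_sum (f := fun k => tl δ k)
        (fun _ _ => Nat.zero_le _) (Finset.mem_filter.2 ⟨Finset.mem_univ k, hk⟩))
      rw [tl_apply, if_neg]
      · exact Nat.pos_of_ne_zero hk0
      · rintro (rfl | rfl) <;> simp at hk <;> omega
  · have := hfin d
    let T0 := (P200.expo (m + 2) d).filter (· ∈ J0)
    have hT0 : ∀ β, β ∈ T0 ↔ β ∈ J0 ∧ β.degree = d := fun β => by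
      simp [T0, P200.mem_expo, and_comm]
    rw [← P200.card_lead κ hκ (W d) T0, card_layers J d T hT, card_layers J0 d T0 hT0]
    · refine Finset.sum_congr rfl fun γ hγ => ?_
      obtain ⟨β, _, rfl⟩ := Finset.mem_image.1 hγ
      exact j5 _ (tl_tl β) _
    · intro β
      rw [hT0]
      constructor
      · rintro ⟨h, rfl⟩
        exact h
      · rintro ⟨w, hw, hw0, hwm⟩
        have : β.degree = d := hW _ _ hw β (Finsupp.mem_support_iff.mpr hw0)
        subst this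
        exact ⟨⟨w, hw, hw0, hwm⟩, rfl⟩

end Vale.Agent.P200M
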